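import Vale.Agent.P025.R2.H492.Ext5

/-!
# P025 (helper535): Galois closures of towers of unramified Galois extensions (KT2)

`K ≤ Z ≤ W`, `Z ≤ L`, `W/K` and `L/Z` finite Galois, solvable, unramified.  There is a finite
Galois `M/K`, solvable, unramified, with `L → M` over `K`, and `[M : K]` divides a power of
`[W : K] [L : Z]`.
-/

set_option linter.unusedSectionVars false
set_option linter.style.haveILetI false

namespace P025H535

open Vale.Agent.P019P P025H492

/-! ## Group theory -/

section Group

/-- A finite group `G` with a map `r` to a solvable group and a hom `φ` from the kernel `B` of `r`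
to a solvable group, such that the conjugates of `φ` are jointly injective. -/
theorem isSolvable_of_conj {G Q P : Type*} [Group G] [Group Q] [Group P] [Group.IsSolvable Q]
    [Group.IsSolvable P] (r : G →* Q) (φ : r.ker →* P)
    (hinj : ∀ b : r.ker, (∀ τ : G, φ (MulAut.conjNormal τ b) = 1) → b = 1) : Group.IsSolvable G := by
  haveI : Group.IsSolvable r.ker := by
    obtain ⟨n, hn⟩ := Group.IsSolvable.solvable (G := P)
    refine ⟨⟨n, ?_⟩⟩
    rw [eq_bot_iff]
    intro b hb
    rw [Subgroup.mem_bot]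
    refine hinj b fun τ => ?_
    have h1 := map_derivedSeries_le_derivedSeries
      (φ.comp (MulAut.conjNormal τ : MulAut r.ker).toMonoidHom) n
    rw [hn] at h1
    have h2 := h1 (Subgroup.mem_map_of_mem _ hb)
    rwa [Subgroup.mem_bot] at h2
  exact Group.isSolvable_of_ker_le_range (r.ker.subtype) r (by rw [Subgroup.range_subtype])

theorem card_dvd_of_conj {G Q P : Type*} [Group G] [Group Q] [Group P] [Finite G] [Finite Q]
    [Finite P] (r : G →* Q) (φ : r.ker →* P)
    (hinj : ∀ b : r.ker, (∀ τ : G, φ (MulAut.conjNormal τ b) = 1) → b = 1) :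
    Nat.card G ∣ (Nat.card Q * Nat.card P) ^ (Nat.card G + 1) := by
  classical
  have h1 : Nat.card r.ker ∣ Nat.card P ^ Nat.card G := by
    let f : r.ker →* (G → P) := MonoidHom.pi fun τ =>
      φ.comp (MulAut.conjNormal τ : MulAut r.ker).toMonoidHom
    have hf : Function.Injective f := by
      rw [injective_iff_map_eq_one]
      intro b hb
      exact hinj b fun τ => congrFun hb τ
    have := Subgroup.card_dvd_of_injective f hf
    rwa [Nat.card_fun] at this
  have h2 : Nat.card G = Nat.card r.ker * Nat.card r.range := by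
    rw [← Subgroup.index_ker, Subgroup.card_mul_index]
  have h3 : Nat.card r.range ∣ Nat.card Q := Subgroup.card_subgroup_dvd_card _
  have h4 : Nat.card G ∣ Nat.card P ^ Nat.card G * Nat.card Q := by
    conv_lhs => rw [h2]
    exact mul_dvd_mul h1 h3
  refine h4.trans ?_
  rw [mul_pow, mul_comm (Nat.card P ^ Nat.card G)]
  exact mul_dvd_mul (dvd_pow_self _ (Nat.succ_ne_zero _)) (pow_dvd_pow _ (Nat.le_succ _))

end Group

/-! ## The field theoretic situation -/

section Fields

variable {K Z W L M : Type*} [Field K] [Field Z] [Field W] [Field L] [Field M]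
  [Algebra K Z] [Algebra K W] [Algebra K L] [Algebra K M] [Algebra Z W] [Algebra Z L]
  [Algebra Z M] [Algebra W M] [Algebra L M]
  [IsScalarTower K Z W] [IsScalarTower K Z L] [IsScalarTower K Z M] [IsScalarTower K W M]
  [IsScalarTower K L M] [IsScalarTower Z W M] [IsScalarTower Z L M]
  [FiniteDimensional K M] [IsGalois K M] [IsGalois K W] [IsGalois Z L]

/-- restriction to `W` -/
noncomputable abbrev rW (K W M : Type*) [Field K] [Field W] [Field M] [Algebra K W] [Algebra K M]
    [Algebra W M] [IsScalarTower K W M] [IsGalois K W] : (M ≃ₐ[K] M) →* (W ≃ₐ[K] W) :=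
  AlgEquiv.restrictNormalHom W

theorem mem_ker_rW {σ : M ≃ₐ[K] M} (h : σ ∈ (rW K W M).ker) (w : W) :
    σ (algebraMap W M w) = algebraMap W M w := by
  rw [MonoidHom.mem_ker] at h
  have h1 := AlgEquiv.restrictNormal_commutes σ W w
  have h2 : σ.restrictNormal W = 1 := h
  rw [h2] at h1
  exact h1.symm

theorem mem_ker_Z {σ : M ≃ₐ[K] M} (h : σ ∈ (rW K W M).ker) (z : Z) :
    σ (algebraMap Z M z) = algebraMap Z M z := by
  rw [IsScalarTower.algebraMap_apply Z W M]
  exact mem_ker_rW h _

variable (Z) in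
/-- elements of the kernel as automorphisms over `Z` -/
noncomputable def kerZ : (rW K W M).ker →* (M ≃ₐ[Z] M) where
  toFun σ := { (σ : M ≃ₐ[K] M) with commutes' := fun z => mem_ker_Z σ.2 z }
  map_one' := rfl
  map_mul' _ _ := rfl

@[simp] theorem kerZ_apply (σ : (rW K W M).ker) (x : M) : kerZ Z σ x = (σ : M ≃ₐ[K] M) x := rfl

variable (Z L) in
/-- restriction to `L` of the automorphisms trivial on `W` -/
noncomputable def kerL : (rW K W M).ker →* (L ≃ₐ[Z] L) :=
  (AlgEquiv.restrictNormalHom L).comp (kerZ Z)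

theorem kerL_commutes (σ : (rW K W M).ker) (x : L) :
    algebraMap L M (kerL Z L σ x) = (σ : M ≃ₐ[K] M) (algebraMap L M x) :=
  AlgEquiv.restrictNormal_commutes (kerZ Z σ) L x

/-- `M` is generated by the conjugates of `W` and `L` -/
def Gen (K W L M : Type*) [Field K] [Field W] [Field L] [Field M] [Algebra K M]
    [Algebra W M] [Algebra L M] : Prop :=
  ∀ σ : M ≃ₐ[K] M, (∀ w : W, σ (algebraMap W M w) = algebraMap W M w) →
    (∀ (τ : M ≃ₐ[K] M) (x : L), σ (τ (algebraMap L M x)) = τ (algebraMap L M x)) → σ = 1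

theorem kerL_inj (hgen : Gen K W L M) (b : (rW K W M).ker)
    (h : ∀ τ : M ≃ₐ[K] M, kerL Z L (MulAut.conjNormal τ b) = 1) : b = 1 := by
  apply Subtype.ext
  refine hgen b.1 (fun w => mem_ker_rW b.2 w) fun τ x => ?_
  have h1 := kerL_commutes (Z := Z) (L := L) (MulAut.conjNormal τ⁻¹ b) x
  rw [h τ⁻¹, MulAut.conjNormal_apply] at h1
  have h2 : algebraMap L M x = τ⁻¹ (b.1 (τ (algebraMap L M x))) := by
    simpa using h1
  have h3 := congrArg τ h2
  rw [← AlgEquiv.mul_apply, mul_inv_cancel] at h3
  exact h3.symm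

theorem isSolvable_of_gen [Group.IsSolvable (W ≃ₐ[K] W)] [Group.IsSolvable (L ≃ₐ[Z] L)]
    (hgen : Gen K W L M) : Group.IsSolvable (M ≃ₐ[K] M) :=
  isSolvable_of_conj (rW K W M) (kerL Z L) (kerL_inj hgen)

theorem finrank_dvd_of_gen [FiniteDimensional K W] [FiniteDimensional Z L]
    (hgen : Gen K W L M) : ∃ j, Module.finrank K M ∣
      (Module.finrank K W * Module.finrank Z L) ^ j := by
  have h := card_dvd_of_conj (rW K W M) (kerL Z L) (kerL_inj (Z := Z) hgen)
  rw [IsGalois.card_aut_eq_finrank, IsGalois.card_aut_eq_finrank,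
    IsGalois.card_aut_eq_finrank] at h
  exact ⟨_, h⟩

end Fields

/-! ## Inertia -/

section Inertia

variable {k K W M : Type*} [Field k] [Field K] [Field W] [Field M]
  [Algebra k K] [Algebra k W] [Algebra k M] [Algebra K W] [Algebra K M] [Algebra W M]
  [IsScalarTower k K W] [IsScalarTower k K M] [IsScalarTower k W M] [IsScalarTower K W M]
  [Algebra.IsAlgebraic W M] [Normal K W]

theorem down_conj_restrict (σ : M ≃ₐ[K] M) (P : Plk k M) :
    down W (conj k σ P) = conj k (σ.restrictNormal W) (down W P) := by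
  refine Subtype.ext (ValuationSubring.ext _ _ fun z => ?_)
  rw [mem_down, mem_conj, mem_conj, mem_down]
  have h : algebraMap W M ((σ.restrictNormal W).symm z) = σ.symm (algebraMap W M z) := by
    apply σ.injective
    rw [AlgEquiv.apply_symm_apply, ← AlgEquiv.restrictNormal_commutes, AlgEquiv.apply_symm_apply]
  rw [h]

theorem restrict_inertia {σ : M ≃ₐ[K] M} {P : Plk k M} (h : σ ∈ inertia K P) :
    σ.restrictNormal W ∈ inertia K (down W P) := by
  rw [mem_inertia, ← down_conj_restrict, mem_inertia.1 h]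

end Inertia

section Unram

variable {k K Z W L M : Type*} [Field k] [Field K] [Field Z] [Field W] [Field L] [Field M]
  [Algebra k K] [Algebra k Z] [Algebra k W] [Algebra k L] [Algebra k M]
  [Algebra K Z] [Algebra K W] [Algebra K L] [Algebra K M] [Algebra Z W] [Algebra Z L]
  [Algebra Z M] [Algebra W M] [Algebra L M]
  [IsScalarTower k K Z] [IsScalarTower k K W] [IsScalarTower k K L] [IsScalarTower k K M]
  [IsScalarTower k Z L] [IsScalarTower k Z M] [IsScalarTower k W M] [IsScalarTower k L M]
  [IsScalarTower K Z W] [IsScalarTower K Z L] [IsScalarTower K Z M] [IsScalarTower K W M]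
  [IsScalarTower K L M] [IsScalarTower Z W M] [IsScalarTower Z L M]
  [FiniteDimensional K M] [FiniteDimensional K W] [FiniteDimensional Z L]
  [IsGalois K M] [IsGalois K W] [IsGalois Z L]
  [CFF k K] [CFF k Z] [CFF k W] [CFF k L] [CFF k M]

theorem unram_of_gen (hgen : Gen K W L M) (hW : ∀ P : Plk k W, ram K P = 1)
    (hL : ∀ P : Plk k L, ram Z P = 1) (P : Plk k M) : ram K P = 1 := by
  haveI : FiniteDimensional W M := FiniteDimensional.right K W M
  haveI : FiniteDimensional Z M := FiniteDimensional.right K Z M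
  haveI : FiniteDimensional L M := FiniteDimensional.right Z L M
  rw [ram_eq_one_iff, eq_bot_iff]
  have hWt : ∀ (Q : Plk k M) (σ : M ≃ₐ[K] M), σ ∈ inertia K Q → σ ∈ (rW K W M).ker := by
    intro Q σ hσ
    have h1 := restrict_inertia (W := W) hσ
    rw [(ram_eq_one_iff (down W Q)).1 (hW _), Subgroup.mem_bot] at h1
    exact h1
  have hLt : ∀ (Q : Plk k M) (σ : M ≃ₐ[K] M) (h : σ ∈ inertia K Q) (x : L),
      σ (algebraMap L M x) = algebraMap L M x := by
    intro Q σ hσ x
    have hk := hWt Q σ hσ
    have h2 : kerZ Z ⟨σ, hk⟩ ∈ inertia Z Q := by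
      rw [mem_inertia]
      exact Subtype.ext (ValuationSubring.ext _ _ fun z => by
        rw [mem_conj]
        have h3 := mem_inertia.1 hσ
        conv_rhs => rw [← h3]
        rw [mem_conj]
        rfl)
    have h4 := restrict_inertia (W := L) h2
    rw [(ram_eq_one_iff (down L Q)).1 (hL _), Subgroup.mem_bot] at h4
    have h5 := AlgEquiv.restrictNormal_commutes (kerZ Z ⟨σ, hk⟩) L x
    rw [h4] at h5
    exact h5.symm
  intro σ hσ
  rw [Subgroup.mem_bot]
  refine hgen σ (fun w => mem_ker_rW (hWt P σ hσ) w) fun τ x => ?_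
  have h6 : τ⁻¹ * σ * τ ∈ inertia K (conj k τ⁻¹ P) := by
    rw [mem_inertia, ← P025H492.conj_mul, mul_assoc, mul_assoc, mul_inv_cancel, mul_one, P025H492.conj_mul,
      mem_inertia.1 hσ]
  have h7 := hLt _ _ h6 x
  have h8 := congrArg τ h7
  simp only [AlgEquiv.mul_apply] at h8
  rw [← AlgEquiv.mul_apply τ τ⁻¹, mul_inv_cancel] at h8
  exact h8

end Unram

end P025H535
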