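import Vale.Agent.P025.R2.H535.Closure

/-!
# P025 (helper535): existence of the Galois closure (KT2)
-/

set_option linter.unusedSectionVars false
set_option linter.style.haveILetI false
set_option linter.style.longLine false

universe u

namespace P025H535

open Vale.Agent.P019P P025H492 IntermediateField

section Gen

variable {K Z W L Ω : Type u} [Field K] [Field Z] [Field W] [Field L] [Field Ω]
  [Algebra K W] [Algebra K L] [Algebra K Ω] [Algebra W Ω] [Algebra L Ω]
  [IsScalarTower K W Ω] [IsScalarTower K L Ω] [Normal K W] [Normal K Ω]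

theorem gen_normalClosure
    (E M : IntermediateField K Ω) [Normal K M] (hM : M = normalClosure K E Ω)
    (hE : E = (IsScalarTower.toAlgHom K W Ω).fieldRange ⊔ (IsScalarTower.toAlgHom K L Ω).fieldRange)
    (σ : M ≃ₐ[K] M)
    (h1 : ∀ (w : W) (hw : algebraMap W Ω w ∈ M),
      ((σ ⟨_, hw⟩ : M) : Ω) = algebraMap W Ω w)
    (h2 : ∀ (τ : M ≃ₐ[K] M) (x : L)
      (hx : algebraMap L Ω x ∈ M), σ (τ ⟨_, hx⟩) = τ ⟨_, hx⟩) : σ = 1 := by
  let S : IntermediateField K Ω := (fixedField (Subgroup.zpowers σ)).map M.val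
  have hS : ∀ a : Ω, ∀ h : a ∈ M, σ ⟨a, h⟩ = ⟨a, h⟩ → a ∈ S := by
    intro a h ha
    refine ⟨⟨a, h⟩, ?_, rfl⟩
    rintro ⟨τ, hτ⟩
    obtain ⟨n, rfl⟩ := Subgroup.mem_zpowers_iff.1 hτ
    have hst : σ ∈ MulAction.stabilizer (M ≃ₐ[K] M) (⟨a, h⟩ : M) := ha
    exact (MulAction.stabilizer (M ≃ₐ[K] M) (⟨a, h⟩ : M)).zpow_mem hst n
  have hEM : E ≤ M := hM ▸ E.le_normalClosure
  have hWE : ∀ w : W, algebraMap W Ω w ∈ E := fun w => by
    rw [hE]
    exact (le_sup_left : _ ≤ (IsScalarTower.toAlgHom K W Ω).fieldRange ⊔ _) ⟨w, rfl⟩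
  have hLE : ∀ x : L, algebraMap L Ω x ∈ E := fun x => by
    rw [hE]
    exact (le_sup_right : _ ≤ _ ⊔ (IsScalarTower.toAlgHom K L Ω).fieldRange) ⟨x, rfl⟩
  have hMS : M ≤ S := by
    rw [hM, normalClosure_def'']
    refine iSup_le fun f => ?_
    rw [hE, IntermediateField.map_sup]
    refine sup_le ?_ ?_
    · rintro _ ⟨_, ⟨w, rfl⟩, rfl⟩
      have e1 : f (algebraMap W Ω w) = algebraMap W Ω (f.restrictNormal W w) :=
        (AlgEquiv.restrictNormal_commutes f W w).symm
      change f (algebraMap W Ω w) ∈ S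
      rw [e1]
      exact hS _ (hEM (hWE _)) (Subtype.ext (h1 _ _))
    · rintro _ ⟨_, ⟨x, rfl⟩, rfl⟩
      change f (algebraMap L Ω x) ∈ S
      have hx : algebraMap L Ω x ∈ M := hEM (hLE x)
      have e1 : ((f.restrictNormal M ⟨_, hx⟩ : M) : Ω) = f (algebraMap L Ω x) :=
        AlgEquiv.restrictNormal_commutes f M ⟨_, hx⟩
      rw [← e1]
      refine hS _ (f.restrictNormal M ⟨_, hx⟩).2 ?_
      exact h2 (f.restrictNormal M) x hx
  ext a
  obtain ⟨b, hb, hba⟩ := hMS a.2
  have hab : b = a := Subtype.ext hba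
  subst hab
  have := hb ⟨σ, Subgroup.mem_zpowers σ⟩
  exact congrArg Subtype.val this

end Gen

section Main

variable {k K Z W L : Type u} [Field k] [Field K] [Field Z] [Field W] [Field L]
  [Algebra k K] [Algebra k Z] [Algebra k W] [Algebra k L]
  [Algebra K Z] [Algebra K W] [Algebra K L] [Algebra Z W] [Algebra Z L]
  [IsScalarTower k K Z] [IsScalarTower k K W] [IsScalarTower k K L] [IsScalarTower k Z L]
  [IsScalarTower K Z W] [IsScalarTower K Z L]
  [FiniteDimensional K W] [FiniteDimensional Z L]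
  [IsGalois K W] [IsGalois Z L]
  [CFF k K] [CFF k Z] [CFF k W] [CFF k L] [CharZero K]

/-- (KT2) Galois closure of a tower of solvable unramified Galois extensions. -/
theorem exists_galois_closure [Group.IsSolvable (W ≃ₐ[K] W)] [Group.IsSolvable (L ≃ₐ[Z] L)]
    (hW : IsUnr k K W) (hL : IsUnr k Z L) :
    ∃ (M : Type u) (_ : Field M) (_ : Algebra k M) (_ : Algebra K M) (_ : Algebra L M)
      (_ : IsScalarTower k K M) (_ : IsScalarTower K L M) (_ : IsScalarTower k L M)
      (_ : CFF k M) (_ : FiniteDimensional K M), IsGalois K M ∧ Group.IsSolvable (M ≃ₐ[K] M) ∧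
        IsUnr k K M ∧ ∃ j, Module.finrank K M ∣ (Module.finrank K W * Module.finrank Z L) ^ j := by
  haveI : FiniteDimensional K Z := FiniteDimensional.left K Z W
  haveI : FiniteDimensional Z W := FiniteDimensional.right K Z W
  haveI : FiniteDimensional K L := FiniteDimensional.trans K Z L
  let Ω := AlgebraicClosure L
  let φ : W →ₐ[Z] Ω := IsAlgClosed.lift
  letI iW : Algebra W Ω := φ.toRingHom.toAlgebra
  haveI : IsScalarTower Z W Ω := IsScalarTower.of_algebraMap_eq fun z => (φ.commutes z).symm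
  haveI : IsScalarTower K W Ω := IsScalarTower.of_algebraMap_eq fun z => by
    rw [IsScalarTower.algebraMap_apply K Z W, ← IsScalarTower.algebraMap_apply Z W Ω,
      ← IsScalarTower.algebraMap_apply K Z Ω]
  haveI : Algebra.IsAlgebraic K Ω := Algebra.IsAlgebraic.trans K L Ω
  haveI : IsAlgClosure K Ω := ⟨inferInstance, inferInstance⟩
  haveI : Normal K Ω := IsAlgClosure.normal K Ω
  let E : IntermediateField K Ω :=
    (IsScalarTower.toAlgHom K W Ω).fieldRange ⊔ (IsScalarTower.toAlgHom K L Ω).fieldRange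
  haveI : FiniteDimensional K (IsScalarTower.toAlgHom K W Ω).fieldRange :=
    Module.Finite.of_surjective (IsScalarTower.toAlgHom K W Ω).rangeRestrict.toLinearMap
      (IsScalarTower.toAlgHom K W Ω).rangeRestrict_surjective
  haveI : FiniteDimensional K (IsScalarTower.toAlgHom K L Ω).fieldRange :=
    Module.Finite.of_surjective (IsScalarTower.toAlgHom K L Ω).rangeRestrict.toLinearMap
      (IsScalarTower.toAlgHom K L Ω).rangeRestrict_surjective
  haveI : FiniteDimensional K E := IntermediateField.finiteDimensional_sup _ _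
  let M : IntermediateField K Ω := normalClosure K E Ω
  haveI : FiniteDimensional K M := normalClosure.is_finiteDimensional K E Ω
  haveI : Normal K M := normalClosure.normal K E Ω
  haveI : IsGalois K M := ⟨⟩
  have hEM : E ≤ M := E.le_normalClosure
  have hWM : ∀ w : W, algebraMap W Ω w ∈ M := fun w =>
    hEM ((le_sup_left : _ ≤ (IsScalarTower.toAlgHom K W Ω).fieldRange ⊔ _) ⟨w, rfl⟩)
  have hLM : ∀ x : L, algebraMap L Ω x ∈ M := fun x =>
    hEM ((le_sup_right : _ ≤ _ ⊔ (IsScalarTower.toAlgHom K L Ω).fieldRange) ⟨x, rfl⟩)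
  letI iWM : Algebra W M := ((algebraMap W Ω).codRestrict M.toSubring hWM).toAlgebra
  letI iLM : Algebra L M := ((algebraMap L Ω).codRestrict M.toSubring hLM).toAlgebra
  letI iZM : Algebra Z M := ((algebraMap L M).comp (algebraMap Z L)).toAlgebra
  letI ikM : Algebra k M := ((algebraMap K M).comp (algebraMap k K)).toAlgebra
  haveI : IsScalarTower K W M := IsScalarTower.of_algebraMap_eq fun z =>
    Subtype.ext (IsScalarTower.algebraMap_apply K W Ω z)
  haveI : IsScalarTower K L M := IsScalarTower.of_algebraMap_eq fun z =>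
    Subtype.ext (IsScalarTower.algebraMap_apply K L Ω z)
  haveI : IsScalarTower Z L M := IsScalarTower.of_algebraMap_eq fun z => rfl
  haveI : IsScalarTower Z W M := IsScalarTower.of_algebraMap_eq fun z =>
    Subtype.ext (by
      change algebraMap L Ω (algebraMap Z L z) = algebraMap W Ω (algebraMap Z W z)
      rw [← IsScalarTower.algebraMap_apply Z L Ω, ← IsScalarTower.algebraMap_apply Z W Ω])
  haveI : IsScalarTower K Z M := IsScalarTower.of_algebraMap_eq fun z => by
    rw [IsScalarTower.algebraMap_apply Z L M, ← IsScalarTower.algebraMap_apply K Z L,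
      ← IsScalarTower.algebraMap_apply K L M]
  haveI : IsScalarTower k K M := IsScalarTower.of_algebraMap_eq fun z => rfl
  haveI : IsScalarTower k L M := IsScalarTower.of_algebraMap_eq fun z => by
    rw [IsScalarTower.algebraMap_apply k K M, IsScalarTower.algebraMap_apply k K L,
      ← IsScalarTower.algebraMap_apply K L M]
  haveI : IsScalarTower k Z M := IsScalarTower.of_algebraMap_eq fun z => by
    rw [IsScalarTower.algebraMap_apply k K M, IsScalarTower.algebraMap_apply k K Z,
      ← IsScalarTower.algebraMap_apply K Z M]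
  haveI : IsScalarTower k W M := IsScalarTower.of_algebraMap_eq fun z => by
    rw [IsScalarTower.algebraMap_apply k K M, IsScalarTower.algebraMap_apply k K W,
      ← IsScalarTower.algebraMap_apply K W M]
  have hgen : Gen K W L M := fun σ h1 h2 =>
    gen_normalClosure (W := W) (L := L) E M rfl rfl σ
      (fun w hw => congrArg Subtype.val (h1 w)) (fun τ x hx => h2 τ x)
  haveI : CFF k M := cff_of_finite (K := K)
  exact ⟨M, inferInstance, ikM, inferInstance, iLM, inferInstance, inferInstance, inferInstance,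
    inferInstance, inferInstance, inferInstance, isSolvable_of_gen (Z := Z) hgen,
    unram_of_gen (Z := Z) hgen hW hL, finrank_dvd_of_gen (Z := Z) hgen⟩

end Main

end P025H535
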