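import Vale.Agent.P025.R2.H544.PatchSpec
import Vale.Agent.P025.R2.H572.Glue

/-!
# P025 (helper535): Kummer gluing of the local model at one point of `D(Z)`

The version of `P025H572.lemA_glue` for a point `π2 : F2 ⊗ Z → K2` (surjective) instead of an
isomorphism.  `ε` is the idempotent of the point.
-/

set_option linter.style.haveILetI false
set_option linter.unusedSectionVars false

open TensorProduct Polynomial

universe e

namespace P025H535

open P025H544 P025H572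

section Lift

/-- a ring homomorphism on the target of a surjection. -/
theorem exists_factor {A B R : Type*} [Ring A] [Ring B] [Ring R] (π : A →+* B)
    (hπ : Function.Surjective π) (f : A →+* R) (h : ∀ a, π a = 0 → f a = 0) :
    ∃ g : B →+* R, ∀ a, g (π a) = f a := by
  refine ⟨RingHom.liftOfSurjective π hπ ⟨f, fun a ha => ?_⟩, fun a => ?_⟩
  · exact h a ha
  · exact RingHom.liftOfRightInverse_comp_apply _ _ _ _ a

end Lift

/-! ## mixing with an idempotent -/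

section Mix

variable {R : Type*} [CommRing R]

/-- `a` on the idempotent `e`, `1` elsewhere. -/
def mix (e a : R) : R := e * a + (1 - e)

theorem mix_mul {e : R} (he : e * e = e) (a c : R) : mix e a * mix e c = mix e (a * c) := by
  have h1 : mix e a * mix e c = (e * e) * (a * c) + (e - e * e) * a + (e - e * e) * c +
      (1 - e - e + e * e) := by unfold mix; ring
  rw [h1, he, sub_self, zero_mul, zero_mul]
  unfold mix
  ring

theorem mix_one (e : R) : mix e 1 = 1 := by unfold mix; ring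

theorem mix_pow {e : R} (he : e * e = e) (a : R) (n : ℕ) : mix e a ^ n = mix e (a ^ n) := by
  induction n with
  | zero => rw [pow_zero, pow_zero, mix_one]
  | succ n ih => rw [pow_succ, ih, mix_mul he, pow_succ]

theorem mix_congr {e a c : R} (h : (a - c) * e = 0) : mix e a = mix e c := by
  unfold mix
  rw [sub_mul, sub_eq_zero] at h
  rw [mul_comm e a, h, mul_comm c e]

theorem isUnit_mix {e a c : R} (he : e * e = e) (h : (a * c - 1) * e = 0) : IsUnit (mix e a) :=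
  IsUnit.of_mul_eq_one (mix e c) (by rw [mix_mul he, mix_congr h, mix_one])

theorem map_mix {S : Type*} [CommRing S] (f : R →+* S) (e a : R) :
    f (mix e a) = mix (f e) (f a) := by
  unfold mix
  rw [map_add, map_mul, map_sub, map_one]

theorem mix_one_left (a : R) : mix 1 a = a := by unfold mix; ring

theorem mix_zero_left (a : R) : mix 0 a = 1 := by unfold mix; ring

end Mix

/-! ## `F2 ⊗[F] L → K2 ⊗[Z] L` -/

section Rho

variable {F A Z L K2 : Type*} [Field F] [Field A] [Algebra F A]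
  [Field Z] [Algebra F Z] [Field L] [Algebra F L] [Algebra Z L] [IsScalarTower F Z L]
  [Field K2] [Algebra Z K2]

variable (F A Z L) in
/-- `A ⊗ Z → A ⊗ L` -/
noncomputable abbrev TL : A ⊗[F] Z →+* A ⊗[F] L :=
  (tL F A (IsScalarTower.toAlgHom F Z L)).toRingHom

theorem TL_tmul (a : A) (z : Z) : TL F A Z L (a ⊗ₜ z) = a ⊗ₜ algebraMap Z L z :=
  tL_tmul _ _ _ _ _

theorem exists_rho0 (π2 : A ⊗[F] Z →+* K2)
    (hπ2z : ∀ z : Z, π2 (1 ⊗ₜ z) = algebraMap Z K2 z) :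
    ∃ ρ : A ⊗[F] L →+* K2 ⊗[Z] L, (∀ (a : A) (z : L), ρ (a ⊗ₜ z) = (π2 (a ⊗ₜ 1)) ⊗ₜ z) ∧
      ∀ w : A ⊗[F] Z, ρ (TL F A Z L w) = (π2 w) ⊗ₜ 1 := by
  let j : L →+* K2 ⊗[Z] L := (Algebra.TensorProduct.includeRight : L →ₐ[Z] K2 ⊗[Z] L).toRingHom
  letI algFT : Algebra F (K2 ⊗[Z] L) := (j.comp (algebraMap F L)).toAlgebra
  have hjK : ∀ z : Z, (algebraMap Z K2 z) ⊗ₜ[Z] (1 : L) = j (algebraMap Z L z) := by
    intro z
    change _ = (1 : K2) ⊗ₜ[Z] algebraMap Z L z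
    rw [Algebra.algebraMap_eq_smul_one, Algebra.algebraMap_eq_smul_one, TensorProduct.smul_tmul]
  let s1 : A →ₐ[F] K2 ⊗[Z] L :=
    { ((Algebra.TensorProduct.includeLeftRingHom : K2 →+* K2 ⊗[Z] L).comp π2).comp
        (Algebra.TensorProduct.includeLeftRingHom : A →+* A ⊗[F] Z) with
      commutes' := by
        intro z
        change (π2 ((algebraMap F A z) ⊗ₜ[F] (1 : Z))) ⊗ₜ[Z] (1 : L) = j (algebraMap F L z)
        rw [Algebra.algebraMap_eq_smul_one, TensorProduct.smul_tmul,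
          ← Algebra.algebraMap_eq_smul_one, hπ2z, hjK, ← IsScalarTower.algebraMap_apply] }
  let s2 : L →ₐ[F] K2 ⊗[Z] L := { j with commutes' := fun z => rfl }
  let ρA : A ⊗[F] L →ₐ[F] K2 ⊗[Z] L :=
    Algebra.TensorProduct.lift s1 s2 (fun _ _ => Commute.all _ _)
  have hρt : ∀ (a : A) (z : L), ρA.toRingHom (a ⊗ₜ z) = (π2 (a ⊗ₜ 1)) ⊗ₜ z := by
    intro a z
    change ρA (a ⊗ₜ z) = _
    rw [Algebra.TensorProduct.lift_tmul]
    change (π2 (a ⊗ₜ[F] (1 : Z))) ⊗ₜ[Z] (1 : L) * ((1 : K2) ⊗ₜ[Z] z) = _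
    rw [Algebra.TensorProduct.tmul_mul_tmul, mul_one, one_mul]
  refine ⟨ρA.toRingHom, hρt, ?_⟩
  intro w
  induction w with
  | zero => simp
  | add u v hu hv => rw [map_add, map_add, hu, hv, map_add, TensorProduct.add_tmul]
  | tmul a c =>
    rw [TL_tmul, hρt, Algebra.algebraMap_eq_smul_one, ← TensorProduct.smul_tmul, Algebra.smul_def,
      ← hπ2z, ← map_mul, Algebra.TensorProduct.tmul_mul_tmul, one_mul, mul_one]

theorem rho_surj (π2 : A ⊗[F] Z →+* K2) (hπ2 : Function.Surjective π2)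
    (ρ : A ⊗[F] L →+* K2 ⊗[Z] L) (h1 : ∀ (a : A) (z : L), ρ (a ⊗ₜ z) = (π2 (a ⊗ₜ 1)) ⊗ₜ z)
    (h2 : ∀ w : A ⊗[F] Z, ρ (TL F A Z L w) = (π2 w) ⊗ₜ 1) : Function.Surjective ρ := by
  intro u
  induction u with
  | zero => exact ⟨0, map_zero _⟩
  | add u v hu hv =>
    obtain ⟨a, rfl⟩ := hu
    obtain ⟨b, rfl⟩ := hv
    exact ⟨a + b, map_add _ _ _⟩
  | tmul a z =>
    obtain ⟨w, rfl⟩ := hπ2 a
    refine ⟨TL F A Z L w * (1 ⊗ₜ z), ?_⟩
    have h3 : π2 (1 ⊗ₜ[F] 1) = 1 := map_one π2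
    rw [map_mul, h2, h1, Algebra.TensorProduct.tmul_mul_tmul, one_mul, h3, mul_one]

theorem rho_ker (π2 : A ⊗[F] Z →+* K2) (hπ2 : Function.Surjective π2)
    (hπ2z : ∀ z : Z, π2 (1 ⊗ₜ z) = algebraMap Z K2 z)
    (ε : A ⊗[F] Z) (hε : ε * ε = ε) (hεk : ∀ w, π2 w = 0 → w * ε = 0)
    (ρ : A ⊗[F] L →+* K2 ⊗[Z] L) (h1 : ∀ (a : A) (z : L), ρ (a ⊗ₜ z) = (π2 (a ⊗ₜ 1)) ⊗ₜ z)
    (a : A ⊗[F] L) (ha : ρ a = 0) : a * TL F A Z L ε = 0 := by
  have hε'2 : TL F A Z L ε * TL F A Z L ε = TL F A Z L ε := by rw [← map_mul, hε]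
  let Iε : Ideal (A ⊗[F] L) := Ideal.span {1 - TL F A Z L ε}
  let mk : A ⊗[F] L →+* (A ⊗[F] L) ⧸ Iε := Ideal.Quotient.mk Iε
  have hmk : ∀ a, mk a = 0 ↔ a * TL F A Z L ε = 0 := by
    intro a
    change Ideal.Quotient.mk Iε a = 0 ↔ _
    rw [Ideal.Quotient.eq_zero_iff_mem, Ideal.mem_span_singleton']
    constructor
    · rintro ⟨c, rfl⟩
      rw [mul_assoc, sub_mul, one_mul, hε'2, sub_self, mul_zero]
    · intro h
      exact ⟨a, by rw [mul_sub, mul_one, h, sub_zero]⟩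
  obtain ⟨r0, hr0⟩ := exists_factor π2 hπ2 (mk.comp (TL F A Z L)) (by
    intro w hw
    rw [RingHom.comp_apply, hmk, ← map_mul, hεk w hw, map_zero])
  letI algZQ : Algebra Z ((A ⊗[F] L) ⧸ Iε) := (mk.comp ((TL F A Z L).comp
    (Algebra.TensorProduct.includeRight : Z →ₐ[F] A ⊗[F] Z).toRingHom)).toAlgebra
  have halgZQ : ∀ z : Z, algebraMap Z ((A ⊗[F] L) ⧸ Iε) z = mk (1 ⊗ₜ algebraMap Z L z) := by
    intro z
    change mk (TL F A Z L (1 ⊗ₜ z)) = _
    rw [TL_tmul]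
  let r1 : K2 →ₐ[Z] (A ⊗[F] L) ⧸ Iε :=
    { r0 with
      commutes' := by
        intro z
        change r0 (algebraMap Z K2 z) = _
        rw [← hπ2z, hr0, halgZQ, RingHom.comp_apply, TL_tmul] }
  let r2 : L →ₐ[Z] (A ⊗[F] L) ⧸ Iε :=
    { mk.comp (Algebra.TensorProduct.includeRight : L →ₐ[F] A ⊗[F] L).toRingHom with
      commutes' := fun z => (halgZQ z).symm }
  let rA : K2 ⊗[Z] L →ₐ[Z] (A ⊗[F] L) ⧸ Iε :=
    Algebra.TensorProduct.lift r1 r2 (fun _ _ => Commute.all _ _)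
  have hrρ : ∀ a, rA (ρ a) = mk a := by
    intro a
    induction a with
    | zero => simp
    | add u v hu hv => rw [map_add, map_add, hu, hv, map_add]
    | tmul a z =>
      rw [h1, Algebra.TensorProduct.lift_tmul]
      change r0 (π2 (a ⊗ₜ 1)) * mk (1 ⊗ₜ z) = _
      rw [hr0, RingHom.comp_apply, TL_tmul, map_one, ← map_mul,
        Algebra.TensorProduct.tmul_mul_tmul, mul_one, one_mul]
  rw [← hmk, ← hrρ, ha, map_zero]

end Rho

section Sq

variable {F A2 A0 Z L K2 K0 : Type*} [Field F] [Field A2] [Field A0] [Algebra F A2] [Algebra F A0]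
  [Algebra A2 A0] [IsScalarTower F A2 A0]
  [Field Z] [Algebra F Z] [Field L] [Algebra F L] [Algebra Z L] [IsScalarTower F Z L]
  [Field K2] [Algebra Z K2] [Field K0] [Algebra Z K0] [Algebra K2 K0] [IsScalarTower Z K2 K0]

theorem TL_bc (w : A2 ⊗[F] Z) :
    TL F A0 Z L (bc F A2 A0 Z w) = bc F A2 A0 L (TL F A2 Z L w) := by
  induction w with
  | zero => simp
  | add u v hu hv => simp only [map_add, hu, hv]
  | tmul a c => rw [bc_tmul, TL_tmul, TL_tmul, bc_tmul]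

/-- the commutative square of the maps `ρ` -/
theorem rho_sq (π2 : A2 ⊗[F] Z →+* K2) (π0 : A0 ⊗[F] Z →+* K0)
    (hπ0 : ∀ w : A2 ⊗[F] Z, π0 (bc F A2 A0 Z w) = algebraMap K2 K0 (π2 w))
    (ρ2 : A2 ⊗[F] L →+* K2 ⊗[Z] L) (h2 : ∀ (a : A2) (z : L), ρ2 (a ⊗ₜ z) = (π2 (a ⊗ₜ 1)) ⊗ₜ z)
    (ρ0 : A0 ⊗[F] L →+* K0 ⊗[Z] L) (h0 : ∀ (a : A0) (z : L), ρ0 (a ⊗ₜ z) = (π0 (a ⊗ₜ 1)) ⊗ₜ z)
    (a : A2 ⊗[F] L) : ρ0 (bc F A2 A0 L a) =
      Algebra.TensorProduct.map (IsScalarTower.toAlgHom Z K2 K0) (AlgHom.id Z L) (ρ2 a) := by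
  induction a with
  | zero => simp
  | add u v hu hv => simp only [map_add, hu, hv]
  | tmul a z =>
    rw [bc_tmul, h0, h2, Algebra.TensorProduct.map_tmul, AlgHom.id_apply,
      IsScalarTower.coe_toAlgHom', ← hπ0, bc_tmul]

/-- the local model over `F0` -/
theorem exists_root0 (q' l : ℕ) (x : K2) (H : AdjoinRoot (X ^ q' - C x : K2[X]))
    (hH0 : ∃ z, z ^ l = mapB q' x K0 H)
    (φ' : AdjoinRoot (X ^ q' - C x : K2[X]) →ₐ[K2] K2 ⊗[Z] L) :
    ∃ v : K0 ⊗[Z] L, v ^ l =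
      Algebra.TensorProduct.map (IsScalarTower.toAlgHom Z K2 K0) (AlgHom.id Z L) (φ' H) := by
  let m : K2 ⊗[Z] L →+* K0 ⊗[Z] L :=
    (Algebra.TensorProduct.map (IsScalarTower.toAlgHom Z K2 K0) (AlgHom.id Z L)).toRingHom
  have hm : ∀ c : K2, m (algebraMap K2 _ c) = algebraMap K0 (K0 ⊗[Z] L) (algebraMap K2 K0 c) := by
    intro c
    change m (c ⊗ₜ 1) = (algebraMap K2 K0 c) ⊗ₜ 1
    change Algebra.TensorProduct.map _ _ (c ⊗ₜ 1) = _
    rw [Algebra.TensorProduct.map_tmul, map_one, IsScalarTower.coe_toAlgHom']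
  let φ0 : AdjoinRoot (X ^ q' - C (algebraMap K2 K0 x) : K0[X]) →+* K0 ⊗[Z] L :=
    AdjoinRoot.lift (algebraMap K0 (K0 ⊗[Z] L)) (m (φ' (AdjoinRoot.root _))) (by
      rw [eval₂_sub, eval₂_X_pow, eval₂_C, ← map_pow, ← map_pow, root_pow, ← hm]
      rw [sub_eq_zero]
      congr 1
      exact φ'.commutes x)
  have hcomp : ∀ c, φ0 (mapB q' x K0 c) = m (φ' c) := by
    intro c
    have : (φ0.comp (mapB q' x K0)) = m.comp φ'.toRingHom := by
      apply AdjoinRoot.ringHom_ext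
      · ext a
        change φ0 (mapB q' x K0 (AdjoinRoot.of _ a)) = m (φ' (algebraMap K2 _ a))
        rw [mapB, AdjoinRoot.lift_of, RingHom.comp_apply, AdjoinRoot.lift_of, AlgHom.commutes, hm]
      · change φ0 (mapB q' x K0 (AdjoinRoot.root _)) = m (φ' (AdjoinRoot.root _))
        rw [mapB, AdjoinRoot.lift_root, AdjoinRoot.lift_root]
    exact RingHom.congr_fun this c
  obtain ⟨z0, hz0⟩ := hH0
  exact ⟨φ0 z0, by rw [← map_pow, hz0, hcomp]; rfl⟩

end Sq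

end P025H535
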