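import Vale.Agent.P025.R2.H535.GlueZ

/-!
# P025 (helper535): Kummer gluing of the local model at one point of `D(Z)`: main theorem
-/

set_option linter.style.haveILetI false
set_option linter.unusedSectionVars false

open TensorProduct Polynomial

universe e

namespace P025H535

open P025H544 P025H572

variable (k : Type*) {F F1 F2 F0 Z L K2 K0 : Type*} [Field k] [IsAlgClosed k] [CharZero k]
  [Field F] [Field F1] [Field F2] [Field F0]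
  [Algebra F F1] [Algebra F F2] [Algebra F F0] [Algebra F1 F0] [Algebra F2 F0]
  [IsScalarTower F F1 F0] [IsScalarTower F F2 F0]
  [Field Z] [Algebra F Z] [Field L] [Algebra F L] [Algebra Z L] [IsScalarTower F Z L]
  [Algebra k Z] [Field K2] [Algebra Z K2] [Field K0] [Algebra Z K0] [Algebra K2 K0]
  [IsScalarTower Z K2 K0]

/-- gluing with an idempotent -/
theorem glue_idem (hP : Patch F F1 F2 F0) [Algebra.IsAlgebraic F L] (l : ℕ) (hl : l ≠ 0)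
    (e : F2 ⊗[F] L) (he : e * e = e) (b0 b1 : F2 ⊗[F] L) (hb : (b0 * b1 - 1) * e = 0)
    (v0 : F0 ⊗[F] L) (hv : (v0 ^ l - bc F F2 F0 L b0) * bc F F2 F0 L e = 0) :
    ∃ (β : L) (b t : (F2 ⊗[F] L)ˣ), β ≠ 0 ∧ (∃ a : F1 ⊗[F] L, a ^ l = 1 ⊗ₜ β) ∧
      (1 : F2) ⊗ₜ[F] β = b * (t : F2 ⊗[F] L) ^ l ∧ (b : F2 ⊗[F] L) = mix e b0 := by
  obtain ⟨b, hbv⟩ := isUnit_mix he hb
  have he0 : bc F F2 F0 L e * bc F F2 F0 L e = bc F F2 F0 L e := by rw [← map_mul, he]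
  have hbc : bc F F2 F0 L (b : F2 ⊗[F] L) = mix (bc F F2 F0 L e) v0 ^ l := by
    rw [hbv, mix_pow he0, mix_congr hv]
    exact map_mix (bc F F2 F0 L).toRingHom e b0
  have hw : IsUnit (mix (bc F F2 F0 L e) v0) := by
    apply (isUnit_pow_iff hl).1
    rw [← hbc]
    exact b.isUnit.map _
  obtain ⟨w, hw⟩ := hw
  have hwl : ((w⁻¹ : (F0 ⊗[F] L)ˣ) : F0 ⊗[F] L) ^ l * (bc F F2 F0 L b) = 1 := by
    rw [hbc, ← hw, ← mul_pow, Units.inv_mul, one_pow]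
  obtain ⟨β, hβ0, ⟨s, hs⟩, ⟨t, ht⟩⟩ := hP.kummer_glue l (1 : (F1 ⊗[F] L)ˣ) b w⁻¹ (by
    rw [Units.val_one, map_one, mul_comm, hwl])
  exact ⟨β, b, t, hβ0, ⟨s, by rw [hs]; simp⟩, ht, hbv⟩

/-- the non `l`-th power at a point -/
theorem exists_pt_not_pow [CharZero Z] [FiniteDimensional Z L] (l : ℕ) (h0 : K2 ⊗[Z] L)
    (hnot : ¬ ∃ z, z ^ l = h0)
    (ρ : F2 ⊗[F] L →+* K2 ⊗[Z] L) (β : L) (b t : (F2 ⊗[F] L)ˣ)
    (ht : (1 : F2) ⊗ₜ[F] β = b * (t : F2 ⊗[F] L) ^ l) (hρb : ρ (b : F2 ⊗[F] L) = h0) :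
    ∃ m : MaximalSpectrum (K2 ⊗[Z] L), ∀ z : F2 ⊗[F] L, ρ (z ^ l - 1 ⊗ₜ β) ∉ m.asIdeal := by
  have hred : IsReduced (K2 ⊗[Z] L) := tensor_reduced
  have hart : IsArtinianRing (K2 ⊗[Z] L) := IsArtinianRing.of_finite K2 _
  obtain ⟨m, hm⟩ : ∃ m : MaximalSpectrum (K2 ⊗[Z] L),
      ¬ ∃ z : (K2 ⊗[Z] L) ⧸ m.asIdeal, z ^ l = Ideal.Quotient.mk m.asIdeal h0 := by
    by_contra hcon
    push Not at hcon
    exact hnot (isPow_of_forall_maximal l _ hcon)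
  refine ⟨m, fun z hz => ?_⟩
  rw [map_sub, map_pow, ht, map_mul, map_pow, hρb] at hz
  apply hm
  have htu : IsUnit (ρ (t : F2 ⊗[F] L)) := t.isUnit.map _
  obtain ⟨tu, htu'⟩ := htu
  refine ⟨Ideal.Quotient.mk m.asIdeal (ρ z * ((tu⁻¹ : (K2 ⊗[Z] L)ˣ) : K2 ⊗[Z] L)), ?_⟩
  rw [← map_pow, ← sub_eq_zero, ← map_sub, Ideal.Quotient.eq_zero_iff_mem]
  rw [← htu'] at hz
  have h1 := m.asIdeal.mul_mem_right (((tu⁻¹ : (K2 ⊗[Z] L)ˣ) : K2 ⊗[Z] L) ^ l) hz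
  rwa [sub_mul, mul_assoc, ← mul_pow, ← mul_pow, Units.mul_inv, one_pow, mul_one] at h1

include k in
theorem glue_pt (hP : Patch F F1 F2 F0) [Algebra.IsAlgebraic F L]
    (π2 : F2 ⊗[F] Z →+* K2) (hπ2 : Function.Surjective π2)
    (hπ2z : ∀ z : Z, π2 (1 ⊗ₜ z) = algebraMap Z K2 z)
    (π0 : F0 ⊗[F] Z →+* K0) (hπ0s : Function.Surjective π0)
    (hπ0 : ∀ w : F2 ⊗[F] Z, π0 (bc F F2 F0 Z w) = algebraMap K2 K0 (π2 w))
    (ε : F2 ⊗[F] Z) (hε : ε * ε = ε) (hε1 : π2 ε = 1) (hεk : ∀ w, π2 w = 0 → w * ε = 0)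
    (hε0 : ∀ w, π0 w = 0 → w * bc F F2 F0 Z ε = 0)
    (q1 q' l : ℕ) (hq1 : q1 ≠ 0) (hq' : q' ≠ 0) (hl : l ≠ 0) (f : Z) (hf : f ≠ 0)
    [IsSplittingField Z L (X ^ (q1 * q') - C f : Z[X])] (x g : K2) (hx : x ≠ 0) (hg : g ≠ 0)
    (hfx : algebraMap Z K2 f = (x * g ^ q') ^ q1)
    (H : AdjoinRoot (X ^ q' - C x : K2[X])) (hHu : IsUnit H) (hH : ¬ ∃ z, z ^ l = H)
    (hH0 : ∃ z, z ^ l = mapB q' x K0 H) :
    ∃ (β : L) (b t : (F2 ⊗[F] L)ˣ) (d' : Pt F F2 L), β ≠ 0 ∧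
      (∃ a : F1 ⊗[F] L, a ^ l = 1 ⊗ₜ β) ∧
      (1 : F2) ⊗ₜ[F] β = b * (t : F2 ⊗[F] L) ^ l ∧
      (∀ z : F2 ⊗[F] L, z ^ l - 1 ⊗ₜ β ∉ d'.asIdeal) ∧
      (∀ w : F2 ⊗[F] Z, TL F F2 Z L w ∈ d'.asIdeal ↔ π2 w = 0) ∧
      (∀ (E : Type e) [Field E] (lam : F2 ⊗[F] L →+* E), lam b = 1 ∨
        ∃ μ : AdjoinRoot (X ^ q' - C x : K2[X]) →+* E, μ H = lam b ∧
          ∀ w, μ (AdjoinRoot.of _ (π2 w)) = lam (TL F F2 Z L w)) := by
  have hZ0 : CharZero Z := charZero_of_injective_algebraMap (algebraMap k Z).injective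
  have hfin : FiniteDimensional Z L := IsSplittingField.finiteDimensional L (X ^ (q1 * q') - C f)
  obtain ⟨φ', hφ'⟩ := exists_hom_not_pow k (L := L) q1 q' l hq1 hq' f hf x g hx hg hfx H hH
  obtain ⟨ρ, hρt, hρT⟩ := exists_rho0 (L := L) π2 hπ2z
  have hρs := rho_surj π2 hπ2 ρ hρt hρT
  have hρk := rho_ker π2 hπ2 hπ2z ε hε hεk ρ hρt
  have hπ0z : ∀ z : Z, π0 (1 ⊗ₜ z) = algebraMap Z K0 z := by
    intro z
    have h1 := hπ0 (1 ⊗ₜ z)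
    rw [bc_tmul, map_one, hπ2z, ← IsScalarTower.algebraMap_apply] at h1
    exact h1
  obtain ⟨ρ0, hρ0t, hρ0T⟩ := exists_rho0 (L := L) π0 hπ0z
  have hρ0s := rho_surj π0 hπ0s ρ0 hρ0t hρ0T
  have hε02 : bc F F2 F0 Z ε * bc F F2 F0 Z ε = bc F F2 F0 Z ε := by rw [← map_mul, hε]
  have hρ0k := rho_ker π0 hπ0s hπ0z (bc F F2 F0 Z ε) hε02 hε0 ρ0 hρ0t
  have hsq := rho_sq π2 π0 hπ0 ρ hρt ρ0 hρ0t
  have hε'2 : TL F F2 Z L ε * TL F F2 Z L ε = TL F F2 Z L ε := by rw [← map_mul, hε]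
  have hρε : ρ (TL F F2 Z L ε) = 1 := by rw [hρT, hε1]; rfl
  obtain ⟨Hu, hHu'⟩ := hHu.map φ'
  obtain ⟨b0, hb0⟩ := hρs (Hu : K2 ⊗[Z] L)
  obtain ⟨b1, hb1⟩ := hρs ((Hu⁻¹ : (K2 ⊗[Z] L)ˣ) : K2 ⊗[Z] L)
  have hprod : (b0 * b1 - 1) * TL F F2 Z L ε = 0 :=
    hρk _ (by rw [map_sub, map_mul, hb0, hb1, Units.mul_inv, map_one, sub_self])
  obtain ⟨v, hv⟩ := exists_root0 (Z := Z) (K0 := K0) q' l x H hH0 φ'
  obtain ⟨v0, hv0⟩ := hρ0s v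
  have hv' : (v0 ^ l - bc F F2 F0 L b0) * bc F F2 F0 L (TL F F2 Z L ε) = 0 := by
    rw [← TL_bc]
    apply hρ0k
    rw [map_sub, map_pow, hv0, hv, hsq, hb0, hHu', sub_self]
  obtain ⟨β, b, t, hβ0, ha, ht, hb⟩ := glue_idem hP l hl _ hε'2 b0 b1 hprod v0 hv'
  have hρb : ρ (b : F2 ⊗[F] L) = φ' H := by
    rw [hb, map_mix, hρε, mix_one_left, hb0, hHu']
  obtain ⟨m, hm⟩ := exists_pt_not_pow (F := F) (F2 := F2) l (φ' H) hφ' ρ β b t ht hρb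
  have hmp : m.asIdeal.IsPrime := m.isMaximal.isPrime
  refine ⟨β, b, t, PrimeSpectrum.comap ρ ⟨m.asIdeal, hmp⟩, hβ0, ha, ht, fun z => hm z, ?_, ?_⟩
  · intro w
    change ρ (TL F F2 Z L w) ∈ m.asIdeal ↔ _
    rw [hρT]
    constructor
    · intro h
      by_contra h0
      apply hmp.ne_top
      rw [Ideal.eq_top_iff_one]
      have h1 := m.asIdeal.mul_mem_left (((π2 w)⁻¹ : K2) ⊗ₜ[Z] (1 : L)) h
      rwa [Algebra.TensorProduct.tmul_mul_tmul, inv_mul_cancel₀ h0, one_mul] at h1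
    · intro h
      rw [h, TensorProduct.zero_tmul]
      exact m.asIdeal.zero_mem
  · intro E _ lam
    have hle : lam (TL F F2 Z L ε) * lam (TL F F2 Z L ε) = lam (TL F F2 Z L ε) := by
      rw [← map_mul, hε'2]
    have hcase : lam (TL F F2 Z L ε) = 0 ∨ lam (TL F F2 Z L ε) = 1 := by
      by_cases h0 : lam (TL F F2 Z L ε) = 0
      · exact Or.inl h0
      · exact Or.inr (mul_left_cancel₀ h0 (by rw [hle, mul_one]))
    rcases hcase with h | h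
    · left
      rw [hb, map_mix, h, mix_zero_left]
    · right
      obtain ⟨lb, hlb⟩ := exists_factor ρ hρs lam (by
        intro a ha
        have h2 := congrArg lam (hρk a ha)
        rwa [map_mul, h, mul_one, map_zero] at h2)
      refine ⟨lb.comp φ'.toRingHom, ?_, ?_⟩
      · change lb (φ' H) = _
        rw [← hρb, hlb]
      · intro w
        change lb (φ' (algebraMap K2 _ (π2 w))) = _
        rw [AlgHom.commutes, ← hlb, hρT]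
        rfl

end P025H535
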