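import Vale.Agent.P025.R2.H492.Ext5

/-!
# P025 (helper535): Kummer covers are covers of the class `Cov`
-/

set_option linter.unusedSectionVars false
set_option linter.style.haveILetI false

open Polynomial IntermediateField Vale.Agent.P019P P025H492

namespace P025H535

section Kum

variable {Z L : Type*} [Field Z] [Field L] [Algebra Z L]

/-- the Kummer character -/
theorem kummer_hom {n : ℕ} (hn : n ≠ 0) {f : Z} (hf : f ≠ 0) {y : L}
    (hy : y ^ n = algebraMap Z L f) (hgen : Z⟮y⟯ = ⊤) {ζ : Z} (hζ : IsPrimitiveRoot ζ n) :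
    ∃ φ : (L ≃ₐ[Z] L) →* rootsOfUnity n L, Function.Injective φ := by
  have hy0 : y ≠ 0 := by
    rintro rfl
    rw [zero_pow hn] at hy
    exact hf ((map_eq_zero (algebraMap Z L)).1 hy.symm)
  haveI : NeZero n := ⟨hn⟩
  have hfix : ∀ σ : L ≃ₐ[Z] L, ∃ c : Z, σ y = algebraMap Z L c * y := by
    intro σ
    have h1 : (σ y / y) ^ n = 1 := by
      rw [div_pow, ← map_pow, hy, σ.commutes, div_self]
      exact (map_ne_zero (algebraMap Z L)).2 hf
    obtain ⟨i, -, hi⟩ := (hζ.map_of_injective (algebraMap Z L).injective).eq_pow_of_pow_eq_one h1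
    refine ⟨ζ ^ i, ?_⟩
    rw [map_pow, hi, div_mul_cancel₀ _ hy0]
  have h1 : ∀ σ : L ≃ₐ[Z] L, (σ y / y) ^ n = 1 := by
    intro σ
    rw [div_pow, ← map_pow, hy, σ.commutes, div_self]
    exact (map_ne_zero (algebraMap Z L)).2 hf
  let φ : (L ≃ₐ[Z] L) →* rootsOfUnity n L :=
    { toFun := fun σ => rootsOfUnity.mkOfPowEq (σ y / y) (h1 σ)
      map_one' := by
        apply Subtype.ext
        apply Units.ext
        rw [rootsOfUnity.coe_mkOfPowEq]
        simp [div_self hy0]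
      map_mul' := by
        intro σ τ
        apply Subtype.ext
        apply Units.ext
        rw [rootsOfUnity.coe_mkOfPowEq, Subgroup.coe_mul, Units.val_mul,
          rootsOfUnity.coe_mkOfPowEq, rootsOfUnity.coe_mkOfPowEq]
        obtain ⟨c, hc⟩ := hfix τ
        obtain ⟨d, hd⟩ := hfix σ
        rw [AlgEquiv.mul_apply, hc, map_mul, σ.commutes, hd]
        field_simp }
  refine ⟨φ, (injective_iff_map_eq_one φ).2 fun σ hσ => ?_⟩
  have h2 : σ y / y = 1 := by
    have h3 := congrArg (fun x : rootsOfUnity n L => ((x : Lˣ) : L)) hσ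
    simpa [φ] using h3
  have h4 : σ y = y := by rwa [div_eq_one_iff_eq hy0] at h2
  have h5 : Z⟮y⟯ ≤ fixedField (Subgroup.zpowers σ) := by
    rw [adjoin_simple_le_iff, mem_fixedField_iff]
    rintro τ ⟨m, rfl⟩
    have h3 : σ ∈ MulAction.stabilizer (L ≃ₐ[Z] L) y := h4
    exact (zpow_mem h3 m : σ ^ m ∈ MulAction.stabilizer (L ≃ₐ[Z] L) y)
  rw [hgen, top_le_iff] at h5
  refine AlgEquiv.ext fun x => ?_
  have h3 : x ∈ fixedField (Subgroup.zpowers σ) := h5 ▸ mem_top
  rw [mem_fixedField_iff] at h3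
  exact h3 σ (Subgroup.mem_zpowers σ)

theorem exists_root_gen {n : ℕ} (hn : n ≠ 0) {f : Z} (hf : f ≠ 0)
    [IsSplittingField Z L (X ^ n - C f : Z[X])] {ζ : Z} (hζ : IsPrimitiveRoot ζ n) :
    ∃ y : L, y ^ n = algebraMap Z L f ∧ Z⟮y⟯ = ⊤ := by
  have hs := IsSplittingField.splits L (X ^ n - C f : Z[X])
  have hpn : 0 < n := Nat.pos_of_ne_zero hn
  obtain ⟨y, hy⟩ := hs.exists_eval_eq_zero (by
    rw [degree_map, degree_X_pow_sub_C hpn]
    exact_mod_cast hn)
  have hy' : y ^ n = algebraMap Z L f := by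
    rw [eval_map_algebraMap, map_sub, map_pow, aeval_X, aeval_C, sub_eq_zero] at hy
    exact hy
  have hy0 : y ≠ 0 := by
    rintro rfl
    rw [zero_pow hn] at hy'
    exact hf ((map_eq_zero (algebraMap Z L)).1 hy'.symm)
  haveI : NeZero n := ⟨hn⟩
  refine ⟨y, hy', ?_⟩
  have h1 := IsSplittingField.adjoin_rootSet L (X ^ n - C f : Z[X])
  rw [eq_top_iff]
  intro x _
  have h2 : x ∈ Algebra.adjoin Z ((X ^ n - C f : Z[X]).rootSet L) := by
    rw [h1]
    trivial
  have h3 : Algebra.adjoin Z ((X ^ n - C f : Z[X]).rootSet L) ≤ Z⟮y⟯.toSubalgebra := by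
    rw [Algebra.adjoin_le_iff]
    intro z hz
    rw [mem_rootSet] at hz
    have hz' : z ^ n = algebraMap Z L f := by
      have := hz.2
      rwa [map_sub, map_pow, aeval_X, aeval_C, sub_eq_zero] at this
    have h4 : (z / y) ^ n = 1 := by
      rw [div_pow, hz', hy', div_self]
      exact (map_ne_zero (algebraMap Z L)).2 hf
    obtain ⟨i, -, hi⟩ := (hζ.map_of_injective (algebraMap Z L).injective).eq_pow_of_pow_eq_one h4
    have h5 : z = algebraMap Z L (ζ ^ i) * y := by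
      rw [map_pow, hi, div_mul_cancel₀ _ hy0]
    rw [h5]
    exact mul_mem (Z⟮y⟯.algebraMap_mem _) (mem_adjoin_simple_self Z y)
  exact h3 h2

end Kum

section Cov

variable {k Z L : Type*} [Field k] [Field Z] [Field L] [Algebra k Z] [Algebra k L] [Algebra Z L]
  [IsScalarTower k Z L] [CFF k Z] [CharZero k]

theorem kummer_cov {n : ℕ} (hn : n ≠ 0) {f : Z} (hf : f ≠ 0)
    [IsSplittingField Z L (X ^ n - C f : Z[X])] [CFF k L] [FiniteDimensional Z L]
    (hdiv : ∀ P : Plk k Z, (n : ℤ) ∣ ord P f) :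
    IsGalois Z L ∧ Group.IsSolvable (L ≃ₐ[Z] L) ∧ IsUnr k Z L ∧ Module.finrank Z L ∣ n := by
  have hac : IsAlgClosed k := CFF.ac (k := k) (F := Z)
  have hn' : (n : k) ≠ 0 := by exact_mod_cast hn
  haveI : NeZero (n : k) := ⟨hn'⟩
  haveI : NeZero n := ⟨hn⟩
  obtain ⟨ζ, hζ⟩ := HasEnoughRootsOfUnity.exists_primitiveRoot k n
  have hζZ := hζ.map_of_injective (algebraMap k Z).injective
  obtain ⟨y, hy, hgen⟩ := exists_root_gen (L := L) hn hf hζZ
  have hgal : IsGalois Z L := isGalois_radicals (k := k) hgen fun z hz => by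
    rw [Set.mem_singleton_iff] at hz
    exact ⟨n, f, hn', hz ▸ hy⟩
  obtain ⟨φ, hφ⟩ := kummer_hom (L := L) hn hf hy hgen hζZ
  refine ⟨hgal, Group.isSolvable_of_isSolvable_injective hφ, isUnr_kummer hn' hy hgen hdiv, ?_⟩
  rw [← IsGalois.card_aut_eq_finrank]
  have h1 := Subgroup.card_dvd_of_injective φ hφ
  have hζL := hζ.map_of_injective (algebraMap k L).injective
  have h2 : Nat.card (rootsOfUnity n L) = n := hζL.card_rootsOfUnity
  rwa [h2] at h1

end Cov

end P025H535
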