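import Vale.Agent.P025.R2.H535.GlueZ2
import Vale.Agent.P025.R2.H628.Glue

/-!
# P025 (helper535): the point of `D(Z)` given by a homomorphism `σ : Z → K2 = F2 ⊗ K`
-/

set_option linter.style.haveILetI false
set_option linter.unusedSectionVars false

open TensorProduct

namespace P025H535

open P025H544 P025H572 P025H628

section Pnt

variable {F A K Z K2 : Type*} [Field F] [Field A] [Algebra F A]
  [Field K] [Algebra F K] [Field Z] [Algebra F Z] [Algebra K Z] [IsScalarTower F K Z]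
  [Field K2]

/-- the hom `A ⊗ Z → K2`, `a ⊗ z ↦ χ(a ⊗ 1) σ(z)`. -/
theorem exists_pnt (χ : A ⊗[F] K →+* K2) (σ : Z →+* K2)
    (hσ : ∀ k, σ (algebraMap K Z k) = χ (1 ⊗ₜ k)) :
    ∃ π : A ⊗[F] Z →+* K2, (∀ a z, π (a ⊗ₜ z) = χ (a ⊗ₜ 1) * σ z) ∧
      (∀ w, π (TL F A K Z w) = χ w) := by
  letI algF : Algebra F K2 := ((χ.comp (Algebra.TensorProduct.includeLeftRingHom :
    A →+* A ⊗[F] K)).comp (algebraMap F A)).toAlgebra
  have hF : ∀ x : F, algebraMap F K2 x = χ ((algebraMap F A x) ⊗ₜ 1) := fun x => rfl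
  let s1 : A →ₐ[F] K2 :=
    { χ.comp (Algebra.TensorProduct.includeLeftRingHom : A →+* A ⊗[F] K) with
      commutes' := fun x => rfl }
  let s2 : Z →ₐ[F] K2 :=
    { σ with
      commutes' := by
        intro x
        change σ (algebraMap F Z x) = _
        rw [IsScalarTower.algebraMap_apply F K Z, hσ, hF, Algebra.algebraMap_eq_smul_one,
          Algebra.algebraMap_eq_smul_one, TensorProduct.smul_tmul] }
  let π : A ⊗[F] Z →ₐ[F] K2 := Algebra.TensorProduct.lift s1 s2 (fun _ _ => Commute.all _ _)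
  have hπ : ∀ a z, π.toRingHom (a ⊗ₜ z) = χ (a ⊗ₜ 1) * σ z := by
    intro a z
    change π (a ⊗ₜ z) = _
    rw [Algebra.TensorProduct.lift_tmul]
    rfl
  refine ⟨π.toRingHom, hπ, fun w => ?_⟩
  induction w with
  | zero => simp
  | add u v hu hv => rw [map_add, map_add, hu, hv, map_add]
  | tmul a c => rw [TL_tmul, hπ, hσ, ← map_mul, Algebra.TensorProduct.tmul_mul_tmul, mul_one,
      one_mul]

/-- the kernel of a point given by `σ` is generated by an idempotent. -/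
theorem exists_pnt_idem [FiniteDimensional K Z] [Algebra.IsSeparable K Z]
    (χ : A ⊗[F] K →+* K2) (hχ : Function.Bijective χ) (σ : Z →+* K2)
    (hσ : ∀ k, σ (algebraMap K Z k) = χ (1 ⊗ₜ k))
    (π : A ⊗[F] Z →+* K2) (hπ : ∀ a z, π (a ⊗ₜ z) = χ (a ⊗ₜ 1) * σ z)
    (hπT : ∀ w, π (TL F A K Z w) = χ w) :
    ∃ ε : A ⊗[F] Z, ε * ε = ε ∧ π ε = 1 ∧ (∀ w, π w = 0 → w * ε = 0) ∧
      ∀ (z : Z) (u : A ⊗[F] K), χ u = σ z → (1 ⊗ₜ z) * ε = TL F A K Z u * ε := by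
  let e := RingEquiv.ofBijective χ hχ
  have he : ∀ w, χ (e.symm w) = w := fun w => e.apply_symm_apply w
  have he' : ∀ w, e.symm (χ w) = w := fun w => e.symm_apply_apply w
  obtain ⟨ε, h1, h2, h3⟩ := exists_idem (K := K) (Z := Z) (A := K2) (B := A ⊗[F] Z)
    (χ.comp (Algebra.TensorProduct.includeRight : K →ₐ[F] A ⊗[F] K).toRingHom)
    ((TL F A K Z).comp e.symm.toRingHom)
    (Algebra.TensorProduct.includeRight : Z →ₐ[F] A ⊗[F] Z).toRingHom
    (fun k => by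
      change TL F A K Z (e.symm (χ (1 ⊗ₜ k))) = 1 ⊗ₜ algebraMap K Z k
      rw [he', TL_tmul]) π
    (fun a => by
      change π (TL F A K Z (e.symm a)) = a
      rw [hπT, he]) (by
      rw [eq_top_iff, ← gen_tensor (F := F) (K := K) (Z := Z) A]
      apply Subring.closure_mono
      apply Set.union_subset_union_left
      rintro _ ⟨w, rfl⟩
      refine ⟨χ w, ?_⟩
      change TL F A K Z (e.symm (χ w)) = TL F A K Z w
      rw [he'])
  refine ⟨ε, h1, h2, fun w hw => ?_, fun z u hu => ?_⟩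
  · rw [h3, hw, map_zero, zero_mul]
  · rw [h3, hπ]
    congr 1
    change TL F A K Z (e.symm (χ (1 ⊗ₜ 1) * σ z)) = _
    have h4 : χ (1 ⊗ₜ[F] 1) = 1 := map_one χ
    rw [h4, one_mul, ← hu, he']

end Pnt

section Pnt2

variable {F A2 A0 K Z K2 K0 : Type*} [Field F] [Field A2] [Field A0] [Algebra F A2] [Algebra F A0]
  [Algebra A2 A0] [IsScalarTower F A2 A0]
  [Field K] [Algebra F K] [Field Z] [Algebra F Z] [Algebra K Z] [IsScalarTower F K Z]
  [Field K2] [Field K0] [Algebra K2 K0]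

/-- all the data of the point needed by `glue_pt` -/
theorem exists_pnt_data [FiniteDimensional K Z] [Algebra.IsSeparable K Z]
    (χ2 : A2 ⊗[F] K →+* K2) (h2 : Function.Bijective χ2)
    (χ0 : A0 ⊗[F] K →+* K0) (h0 : Function.Bijective χ0)
    (hc : ∀ w, χ0 (bc F A2 A0 K w) = algebraMap K2 K0 (χ2 w))
    (σ : Z →+* K2) (hσ : ∀ k, σ (algebraMap K Z k) = χ2 (1 ⊗ₜ k)) :
    ∃ (π2 : A2 ⊗[F] Z →+* K2) (π0 : A0 ⊗[F] Z →+* K0) (ε : A2 ⊗[F] Z),
      (∀ a z, π2 (a ⊗ₜ z) = χ2 (a ⊗ₜ 1) * σ z) ∧ (∀ w, π2 (TL F A2 K Z w) = χ2 w) ∧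
      Function.Surjective π2 ∧ Function.Surjective π0 ∧
      (∀ w, π0 (bc F A2 A0 Z w) = algebraMap K2 K0 (π2 w)) ∧
      ε * ε = ε ∧ π2 ε = 1 ∧ (∀ w, π2 w = 0 → w * ε = 0) ∧
      (∀ w, π0 w = 0 → w * bc F A2 A0 Z ε = 0) := by
  obtain ⟨π2, hπ, hπT⟩ := exists_pnt χ2 σ hσ
  have hσ0 : ∀ k, ((algebraMap K2 K0).comp σ) (algebraMap K Z k) = χ0 (1 ⊗ₜ k) := by
    intro k
    rw [RingHom.comp_apply, hσ, ← hc, bc_tmul, map_one]
  obtain ⟨π0, hπ0, hπT0⟩ := exists_pnt χ0 ((algebraMap K2 K0).comp σ) hσ0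
  obtain ⟨ε, h3, h4, h5, h6⟩ := exists_pnt_idem χ2 h2 σ hσ π2 hπ hπT
  refine ⟨π2, π0, ε, hπ, hπT, ?_, ?_, ?_, h3, h4, h5, ?_⟩
  · intro y
    obtain ⟨w, rfl⟩ := h2.2 y
    exact ⟨_, hπT w⟩
  · intro y
    obtain ⟨w, rfl⟩ := h0.2 y
    exact ⟨_, hπT0 w⟩
  · intro w
    induction w with
    | zero => simp
    | add u v hu hv => simp only [map_add, hu, hv]
    | tmul a z =>
      have h7 := hc (a ⊗ₜ 1)
      rw [bc_tmul] at h7
      rw [bc_tmul, hπ0, hπ, map_mul, ← h7]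
      rfl
  · -- `w * bc ε = TL (χ0⁻¹ (π0 w)) * bc ε`
    have key : ∀ w : A0 ⊗[F] Z, ∃ u : A0 ⊗[F] K, χ0 u = π0 w ∧
        w * bc F A2 A0 Z ε = TL F A0 K Z u * bc F A2 A0 Z ε := by
      intro w
      induction w with
      | zero => exact ⟨0, by simp, by simp⟩
      | add x y hx hy =>
        obtain ⟨u, hu, hu'⟩ := hx
        obtain ⟨v, hv, hv'⟩ := hy
        exact ⟨u + v, by rw [map_add, map_add, hu, hv],
          by rw [add_mul, hu', hv', map_add, add_mul]⟩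
      | tmul a z =>
        obtain ⟨u, hu⟩ := h2.2 (σ z)
        have h8 := h6 z u hu
        refine ⟨(a ⊗ₜ 1) * bc F A2 A0 K u, ?_, ?_⟩
        · rw [map_mul, hc, hu, hπ0]
          rfl
        · have h9 : a ⊗ₜ[F] z = (a ⊗ₜ[F] (1 : Z)) * bc F A2 A0 Z ((1 : A2) ⊗ₜ[F] z) := by
            rw [bc_tmul, map_one, Algebra.TensorProduct.tmul_mul_tmul, mul_one, one_mul]
          rw [h9, mul_assoc, ← map_mul, h8, map_mul, ← TL_bc, map_mul, TL_tmul, map_one, mul_assoc]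
    intro w hw
    obtain ⟨u, hu, hu'⟩ := key w
    rw [hw] at hu
    have h10 : u = 0 := h0.1 (by rw [hu, map_zero])
    rw [hu', h10, map_zero, zero_mul]

end Pnt2

end P025H535
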