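import Vale.Agent.P025.R2.H492.Ext2
import Vale.Agent.P025.R2.H670.Density

/-!
# P025 (helper535): the function `T` with poles over finitely many values of `ψ`
-/

set_option linter.style.haveILetI false
set_option linter.unusedSectionVars false

open Polynomial IntermediateField Vale.Agent.P019P P025H492 P025H670

namespace P025H535

section

variable {C K : Type*} [Field C] [Field K] [Algebra C K] [CFF C K]

/-- the order of `ψ - b` at a place with value `a`. -/
theorem ord_sub_of_value {ψ : K} {P : Plk C K} {a b : C}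
    (ha : 0 < ord P (ψ - algebraMap C K a)) (hab : b ≠ a) :
    ord P (ψ - algebraMap C K b) = 0 := by
  have h := (ord_aeval_of_eval ha (q := X - Polynomial.C b) (by
    rw [eval_sub, eval_X, eval_C]
    exact sub_ne_zero.2 fun h => hab h.symm)).2
  rwa [map_sub, aeval_X, aeval_C] at h

theorem exists_poles {ψ : K} (hψ : ∀ a : C, ψ ≠ algebraMap C K a) (A : Finset C)
    (hA : A.Nonempty) : ∃ T : K, (∀ a : C, T ≠ algebraMap C K a) ∧
      (∀ P : Plk C K, ord P T < 0 ↔ ∃ a ∈ A, 0 < ord P (ψ - algebraMap C K a)) ∧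
      ∀ (P : Plk C K) (u : C), u ∉ A → 0 < ord P (ψ - algebraMap C K u) → ord P T = 0 := by
  classical
  have hne : ∀ a : C, (ψ - algebraMap C K a)⁻¹ ≠ 0 := fun a => inv_ne_zero (sub_ne_zero.2 (hψ a))
  let T : K := ∏ a ∈ A, (ψ - algebraMap C K a)⁻¹
  have hT : ∀ P : Plk C K, ord P T = - ∑ a ∈ A, ord P (ψ - algebraMap C K a) := by
    intro P
    rw [ord_prod P A _ fun a _ => hne a, ← Finset.sum_neg_distrib]
    exact Finset.sum_congr rfl fun a _ => ord_inv P _
  have hpole : ∀ P : Plk C K, ord P T < 0 ↔ ∃ a ∈ A, 0 < ord P (ψ - algebraMap C K a) := by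
    intro P
    constructor
    · intro h
      by_contra hcon
      push Not at hcon
      have := Finset.sum_nonpos (s := A) (f := fun a => ord P (ψ - algebraMap C K a)) hcon
      rw [hT] at h
      omega
    · rintro ⟨a, ha, hpos⟩
      have : ∑ b ∈ A, ord P (ψ - algebraMap C K b) = ord P (ψ - algebraMap C K a) :=
        Finset.sum_eq_single a (fun b _ hb => ord_sub_of_value hpos hb) (fun h => absurd ha h)
      rw [hT, this]
      omega
  refine ⟨T, ?_, hpole, ?_⟩
  · obtain ⟨a, ha⟩ := hA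
    obtain ⟨P, hP⟩ := exists_zero (z := ψ - algebraMap C K a) (fun b h => by
      apply hψ (a + b)
      rw [map_add, ← h]
      ring)
    exact nc_of_ord (P := P) ((hpole P).2 ⟨a, ha, hP⟩).ne
  · intro P u hu hpos
    rw [hT, neg_eq_zero]
    exact Finset.sum_eq_zero fun b hb => ord_sub_of_value hpos (fun h => hu (h ▸ hb))

theorem fib_finite' {ψ : K} (hψ : ∀ a : C, ψ ≠ algebraMap C K a) (a : C) :
    {P : Plk C K | 0 < ord P (ψ - algebraMap C K a)}.Finite :=
  zeros_finite (x := ψ - algebraMap C K a) (fun b h => by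
      apply hψ (a + b)
      rw [map_add, ← h]
      ring)

end

section

variable {C K : Type*} [NormedField C] [Field K] [Algebra C K] [CFF C K]

/-- places over finitely many values of `ψ`, other than the only pole of `t`: `t` is bounded. -/
theorem exists_bound_t {ψ t : K} (hψ : ∀ a : C, ψ ≠ algebraMap C K a)
    (ht : ∀ a : C, t ≠ algebraMap C K a) (A : Finset C) (Q1 : Plk C K)
    (hQ1 : ∀ Q, ord Q t < 0 ↔ Q = Q1) (hA : ∀ a ∈ A, ord Q1 (ψ - algebraMap C K a) ≤ 0) :
    ∃ r : ℝ, ∀ Q : Plk C K, (∃ a ∈ A, 0 < ord Q (ψ - algebraMap C K a)) →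
      ∃ b : C, ‖b‖ ≤ r ∧ 0 < ord Q (t - algebraMap C K b) := by
  classical
  have hfin : {Q : Plk C K | ∃ a ∈ A, 0 < ord Q (ψ - algebraMap C K a)}.Finite := by
    have h1 := A.finite_toSet.biUnion (t := fun a => {Q : Plk C K | 0 < ord Q (ψ - algebraMap C K a)})
      fun a _ => fib_finite' hψ a
    refine h1.subset ?_
    rintro Q ⟨a, ha, hQ⟩
    exact Set.mem_biUnion ha hQ
  have hval : ∀ Q : Plk C K, (∃ a ∈ A, 0 < ord Q (ψ - algebraMap C K a)) →
      ∃ b : C, 0 < ord Q (t - algebraMap C K b) := by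
    rintro Q ⟨a, ha, hQ⟩
    apply exists_value ht
    by_contra hneg
    push Not at hneg
    obtain rfl := (hQ1 Q).1 hneg
    have := hA a ha
    omega
  choose! b hb using hval
  refine ⟨∑ Q ∈ hfin.toFinset, ‖b Q‖, fun Q hQ => ⟨b Q, ?_, hb Q hQ⟩⟩
  exact Finset.single_le_sum (f := fun Q => ‖b Q‖) (fun _ _ => norm_nonneg _)
    ((Set.Finite.mem_toFinset hfin).2 hQ)

end

end P025H535
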