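import Vale.Agent.P025.R2.H450.Ev3
import Vale.Agent.P025.R2.H628.Rad

/-!
# P025 (helper535): restriction of functions on `|T| ≤ ‖c‖` to a disc inside
-/

set_option linter.style.haveILetI false
set_option linter.unusedSectionVars false

open TensorProduct Polynomial

universe u v

namespace P025H535

open P025H373 P025H628 P025H544 P025H450

/-- ring homomorphisms on a tensor product -/
theorem exists_lift_ring {F A K B : Type*} [Field F] [CommRing A] [CommRing K] [CommRing B]
    [Algebra F A] [Algebra F K] (f : A →+* B) (g : K →+* B)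
    (h : ∀ x : F, f (algebraMap F A x) = g (algebraMap F K x)) :
    ∃ R : A ⊗[F] K →+* B, ∀ a k, R (a ⊗ₜ k) = f a * g k := by
  letI algF : Algebra F B := (f.comp (algebraMap F A)).toAlgebra
  let s1 : A →ₐ[F] B := { f with commutes' := fun x => rfl }
  let s2 : K →ₐ[F] B := { g with commutes' := fun x => (h x).symm }
  refine ⟨(Algebra.TensorProduct.lift s1 s2 (fun _ _ => Commute.all _ _)).toRingHom,
    fun a k => ?_⟩
  change Algebra.TensorProduct.lift s1 s2 (fun _ _ => Commute.all _ _) (a ⊗ₜ k) = _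
  rw [Algebra.TensorProduct.lift_tmul]
  rfl

section Restr

variable {C : Type u} [NontriviallyNormedField C] [IsUltrametricDist C] [CompleteSpace C]
  [IsAlgClosed C] {K : Type v} [Field K] [Algebra C K] [Algebra (RatFunc C) K]
  [IsScalarTower C (RatFunc C) K]

/-- restriction of functions on `|T| ≤ ‖c‖` to a disc, given by `ψ`, on which `|T| ≤ ‖c‖`. -/
theorem exists_restr (c : Cˣ) (ψ : K →ₐ[C] F2 C)
    (hA : ((ψ (algebraMap (RatFunc C) K RatFunc.X) : F2 C) : F0 C) ∈ A2 C)
    (hn : ‖((ψ (algebraMap (RatFunc C) K RatFunc.X) : F2 C) : F0 C)‖ ≤ ‖(c : C)‖) :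
    ∃ R : F1r C c ⊗[RatFunc C] K →+* F2 C, ∀ k, R (1 ⊗ₜ k) = ψ k := by
  set T' : F2 C := ψ (algebraMap (RatFunc C) K RatFunc.X) with hT'
  haveI hcs : CompleteSpace (A2 C) := isClosed_A2.completeSpace_coe
  let b : A2 C := ⟨algebraMap C (F0 C) (c⁻¹ : Cˣ) * (T' : F0 C),
    Subalgebra.mul_mem _ ((A2 C).algebraMap_mem _) hA⟩
  have hb : ‖b‖ ≤ 1 := by
    change ‖algebraMap C (F0 C) ((c⁻¹ : Cˣ) : C) * (T' : F0 C)‖ ≤ 1
    rw [norm_mul, norm_algebraMap_C, Units.val_inv_eq_inv_val, norm_inv]
    exact inv_mul_le_one_of_le₀ hn (norm_nonneg _)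
  obtain ⟨φ, hφ⟩ := exists_ev1 (B := A2 C) (algebraMap C (A2 C))
    (fun a => (norm_algebraMap_C (C := C) a).le) hb
  let f2 : RatFunc C →+* F2 C := (ψ.toRingHom.comp (algebraMap (RatFunc C) K)).comp
    (scale (c : C) c.ne_zero).symm.toRingEquiv.toRingHom
  have hcc : ∀ a : C, (scale (c : C) c.ne_zero).symm (algebraMap C (RatFunc C) a) =
    algebraMap C (RatFunc C) a := fun a => (scale (c : C) c.ne_zero).symm.commutes a
  have hf2C : ∀ a : C, f2 (algebraMap C (RatFunc C) a) = algebraMap C (F2 C) a := by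
    intro a
    change ψ (algebraMap (RatFunc C) K ((scale (c : C) c.ne_zero).symm _)) = _
    rw [hcc, ← IsScalarTower.algebraMap_apply, ψ.commutes]
  have hf2X : f2 RatFunc.X = j2 b := by
    change ψ (algebraMap (RatFunc C) K ((scale (c : C) c.ne_zero).symm RatFunc.X)) = _
    have h1 : (scale (c : C) c.ne_zero).symm RatFunc.X =
        algebraMap C (RatFunc C) ((c⁻¹ : Cˣ) : C) * RatFunc.X := by
      rw [AlgEquiv.symm_apply_eq, map_mul, AlgEquiv.commutes, scale_X, ← RatFunc.algebraMap_eq_C,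
        ← mul_assoc, ← map_mul, Units.inv_mul, map_one, one_mul]
    rw [h1, map_mul, map_mul, ← IsScalarTower.algebraMap_apply, ψ.commutes, ← hT']
    rfl
  have hpoly : ∀ P : C[X], j2 (φ (iA P)) = f2 (algebraMap C[X] (RatFunc C) P) := by
    intro P
    have : (j2.comp φ).comp iA = f2.comp (algebraMap C[X] (RatFunc C)) := by
      apply Polynomial.ringHom_ext
      · intro a
        change j2 (φ (iA (Polynomial.C a))) = f2 (algebraMap C[X] (RatFunc C) (Polynomial.C a))
        rw [hφ, eval₂_C]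
        have h2 : algebraMap C[X] (RatFunc C) (Polynomial.C a) = algebraMap C (RatFunc C) a := by
          rw [RatFunc.algebraMap_C]
          rfl
        rw [h2, hf2C]
        rfl
      · change j2 (φ (iA X)) = f2 (algebraMap C[X] (RatFunc C) X)
        rw [hφ, eval₂_X, RatFunc.algebraMap_X, hf2X]
    exact RingHom.congr_fun this P
  obtain ⟨h, hh⟩ := exists_extend_F1 (B := F2 C) (j2.comp φ) (by
    intro P hP
    rw [RingHom.comp_apply, hpoly, isUnit_iff_ne_zero]
    rw [map_ne_zero_iff _ f2.injective]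
    exact RatFunc.algebraMap_ne_zero hP)
  have hrat : ∀ r : RatFunc C, h (algebraMap (RatFunc C) (F1 C) r) = f2 r := by
    intro r
    have : h.comp (algebraMap (RatFunc C) (F1 C)) = f2 := by
      apply ratFunc_hom_ext
      intro P
      rw [RingHom.comp_apply, ← jA_iA, hh, RingHom.comp_apply, hpoly]
    exact RingHom.congr_fun this r
  obtain ⟨R, hR⟩ := exists_lift_ring (F := RatFunc C) (A := F1r C c) (K := K) (B := F2 C) h
    ψ.toRingHom (by
      intro x
      rw [algebraMap_F1r]
      refine (hrat _).trans ?_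
      change ψ (algebraMap (RatFunc C) K ((scale (c : C) c.ne_zero).symm
        (scale (c : C) c.ne_zero x))) = _
      rw [AlgEquiv.symm_apply_apply]
      rfl)
  refine ⟨R, fun k => ?_⟩
  refine (hR 1 k).trans ?_
  change h (1 : F1 C) * ψ k = ψ k
  rw [map_one, one_mul]

end Restr

end P025H535
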