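import Vale.Agent.P025.R2.H535.Restr
import Vale.Agent.P025.R2.H450.RnsDef
import Vale.Agent.P025.R2.H210.Disc

/-!
# P025 (helper535): (9.5) the lift of a disc to the cover given by (III')
-/

set_option linter.style.haveILetI false
set_option linter.unusedSectionVars false

open TensorProduct Polynomial

universe u

namespace P025H535

open P025H373 P025H628 P025H544 P025H492 P025H837 P025H450 P025H210 Vale.Agent.P019P

/-- (III') (helper628, `three'`) -/
def RowThree' (C : Type u) [NontriviallyNormedField C] [IsUltrametricDist C] [CompleteSpace C]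
    [IsAlgClosed C] [CharZero C] : Prop :=
  ∀ (K : Type u) [Field K] [Algebra C K] [Algebra (RatFunc C) K] [IsScalarTower C (RatFunc C) K]
    [FiniteDimensional (RatFunc C) K] [CFF C K] (m l : ℕ), l.Prime → Nat.Coprime l m →
    (∀ P : Plk C K, ord P (TT C K) < 0 → RNS m l C K P) →
    ∃ (r0 : ℝ) (Nm : ℕ), 0 < r0 ∧ ∀ q : ℕ, 0 < q → ∀ c : Cˣ, r0 < ‖(c : C)‖ * ‖(q : C)‖ ^ Nm →
      ∀ h : K, h ≠ 0 → (∀ P : Plk C K, 0 ≤ ord P (TT C K) → (q : ℤ) ∣ ord P h) →
      ∃ (Z W : Type u) (_ : Field Z) (_ : Field W) (_ : Algebra C Z) (_ : Algebra C W)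
        (_ : Algebra K Z) (_ : Algebra K W) (_ : Algebra Z W) (_ : Algebra (RatFunc C) Z)
        (_ : IsScalarTower C K Z) (_ : IsScalarTower C K W) (_ : IsScalarTower C Z W)
        (_ : IsScalarTower K Z W) (_ : IsScalarTower (RatFunc C) K Z)
        (_ : IsScalarTower C (RatFunc C) Z) (_ : CFF C Z) (_ : CFF C W),
        Cov (m * l) C K W ∧
        ∃ j : Z →ₐ[RatFunc C] F1r C c ⊗[RatFunc C] K,
          (∀ k : K, j (algebraMap K Z k) = 1 ⊗ₜ k) ∧
          ∃ y : Z, y ≠ 0 ∧ (∀ P : Plk C Z, (q : ℤ) ∣ ord P y) ∧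
            ∃ w : (F1r C c ⊗[RatFunc C] K)ˣ,
              (1 : F1r C c) ⊗ₜ[RatFunc C] h = j y * (w : F1r C c ⊗[RatFunc C] K) ^ q

/-- the output of (III') over a disc `ψ` -/
def DiscLift {C : Type u} [NontriviallyNormedField C] [IsUltrametricDist C] [CompleteSpace C]
    [IsAlgClosed C] [CharZero C] {K : Type u} [Field K] [Algebra C K] (N : ℕ) (ψ : K →ₐ[C] F2 C)
    (q : ℕ) (h : K) : Prop :=
  ∃ (Z W : Type u) (_ : Field Z) (_ : Field W) (_ : Algebra C Z) (_ : Algebra C W)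
    (_ : Algebra K Z) (_ : Algebra K W) (_ : Algebra Z W)
    (_ : IsScalarTower C K Z) (_ : IsScalarTower C K W) (_ : IsScalarTower C Z W)
    (_ : IsScalarTower K Z W) (_ : CFF C Z) (_ : CFF C W),
    Cov N C K W ∧ ∃ σ : Z →+* F2 C, (∀ k : K, σ (algebraMap K Z k) = ψ k) ∧
      ∃ y : Z, y ≠ 0 ∧ (∀ P : Plk C Z, (q : ℤ) ∣ ord P y) ∧
        ∃ v : F2 C, v ≠ 0 ∧ ψ h = σ y * v ^ q

variable {C : Type u} [NontriviallyNormedField C] [IsUltrametricDist C] [CompleteSpace C]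
  [IsAlgClosed C] [CharZero C]
  {K : Type u} [Field K] [Algebra C K]

theorem stageB [Algebra (RatFunc C) K] [IsScalarTower C (RatFunc C) K]
    [FiniteDimensional (RatFunc C) K] [CFF C K]
    (hThree : RowThree' C) {m l : ℕ} (hl : l.Prime) (hlm : Nat.Coprime l m)
    (hR : ∀ P : Plk C K, ord P (TT C K) < 0 → RNS m l C K P) (q : ℕ) (hq : 0 < q)
    (ψ : K →ₐ[C] F2 C) (hA : ((ψ (TT C K) : F2 C) : F0 C) ∈ A2 C) (h : K) (hh : h ≠ 0)
    (hdiv : ∀ P : Plk C K, 0 ≤ ord P (TT C K) → (q : ℤ) ∣ ord P h) :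
    DiscLift (m * l) ψ q h := by
  obtain ⟨r0, Nm, hr0, h3⟩ := hThree K m l hl hlm hR
  have hqC : 0 < ‖(q : C)‖ ^ Nm := by
    have : (q : C) ≠ 0 := by exact_mod_cast hq.ne'
    positivity
  obtain ⟨c, hc⟩ := NormedField.exists_lt_norm C
    (max ‖((ψ (TT C K) : F2 C) : F0 C)‖ (r0 / ‖(q : C)‖ ^ Nm))
  have hc0 : c ≠ 0 := by
    rintro rfl
    rw [norm_zero] at hc
    exact absurd hc (not_lt.2 ((norm_nonneg _).trans (le_max_left _ _)))
  have hc1 : ‖((ψ (TT C K) : F2 C) : F0 C)‖ ≤ ‖((Units.mk0 c hc0 : Cˣ) : C)‖ :=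
    (le_max_left _ _).trans hc.le
  have hc2 : r0 < ‖((Units.mk0 c hc0 : Cˣ) : C)‖ * ‖(q : C)‖ ^ Nm := by
    rw [← div_lt_iff₀ hqC]
    exact (le_max_right _ _).trans_lt hc
  obtain ⟨Z, W, _, _, _, _, _, _, _, _, _, _, _, _, _, _, _, _, hcov, j, hj, y, hy0, hy, w, hw⟩ :=
    h3 q hq (Units.mk0 c hc0) hc2 h hh hdiv
  obtain ⟨R, hR⟩ := exists_restr (Units.mk0 c hc0) ψ hA hc1
  refine ⟨Z, W, inferInstance, inferInstance, inferInstance, inferInstance, inferInstance,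
    inferInstance, inferInstance, inferInstance, inferInstance, inferInstance, inferInstance,
    inferInstance, inferInstance, hcov, R.comp j.toRingHom, fun k => ?_, y, hy0, hy,
    R w, (w.isUnit.map R).ne_zero, ?_⟩
  · change R (j (algebraMap K Z k)) = _
    rw [hj, hR]
  · change ψ h = R (j y) * R w ^ q
    rw [← hR, hw, map_mul, map_pow]

end P025H535
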