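import Vale.Agent.P025.R2.H492.Ext1

/-!
# P025 (helper535): structures over `C(t)`, functions with given poles
-/

set_option linter.style.haveILetI false
set_option linter.unusedSectionVars false

open Polynomial IntermediateField Vale.Agent.P019P P025H492

namespace P025H535

section

variable {C K : Type*} [Field C] [Field K] [Algebra C K]

theorem exists_struct [CFF C K] (T : K) (hT : ∀ a : C, T ≠ algebraMap C K a) :
    ∃ (_ : Algebra (RatFunc C) K) (_ : IsScalarTower C (RatFunc C) K),
      FiniteDimensional (RatFunc C) K ∧ algebraMap (RatFunc C) K RatFunc.X = T := by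
  obtain ⟨htr, hfin⟩ := finite_of_notMem (k := C) (F := K) (x := T) hT
  let e : RatFunc C →ₐ[C] K :=
    IsFractionRing.liftAlgHom (g := (aeval T : C[X] →ₐ[C] K)) (transcendental_iff_injective.1 htr)
  have heP : ∀ P : C[X], e (algebraMap C[X] (RatFunc C) P) = aeval T P := by
    intro P
    simp [e, IsFractionRing.liftAlgHom_apply]
  have heX : e RatFunc.X = T := by
    rw [← RatFunc.algebraMap_X, heP, aeval_X]
  letI : Algebra (RatFunc C) K := e.toRingHom.toAlgebra
  haveI : IsScalarTower C (RatFunc C) K :=
    IsScalarTower.of_algebraMap_eq fun c => (e.commutes c).symm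
  have hX : algebraMap (RatFunc C) K RatFunc.X = T := heX
  refine ⟨inferInstance, inferInstance, ?_, hX⟩
  have hr : ∀ a : C⟮T⟯, ∃ r : RatFunc C, algebraMap (RatFunc C) K r = a := by
    intro a
    have h1 : C⟮T⟯ ≤ (IsScalarTower.toAlgHom C (RatFunc C) K).fieldRange := by
      rw [adjoin_simple_le_iff]
      exact ⟨RatFunc.X, hX⟩
    obtain ⟨r, hr⟩ := h1 a.2
    exact ⟨r, hr⟩
  obtain ⟨S, hS⟩ := hfin.fg_top
  refine ⟨S, ?_⟩
  rw [eq_top_iff]
  rintro x -
  have hx : x ∈ Submodule.span C⟮T⟯ (S : Set K) := by
    rw [hS]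
    trivial
  induction hx using Submodule.span_induction with
  | mem x hx => exact Submodule.subset_span hx
  | zero => exact zero_mem _
  | add x y _ _ hx hy => exact add_mem hx hy
  | smul a x _ hx =>
    obtain ⟨r, hr⟩ := hr a
    have : a • x = r • x := by
      rw [Algebra.smul_def, Algebra.smul_def, hr]
      rfl
    rw [this]
    exact Submodule.smul_mem _ _ hx

/-- a function with its only pole at `P`. -/
theorem exists_one_pole [CFF C K] (P : Plk C K) : ∃ z : K, (∀ a : C, z ≠ algebraMap C K a) ∧
    ∀ Q : Plk C K, ord Q z < 0 ↔ Q = P := by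
  classical
  obtain ⟨z, hz0, hz, hzP⟩ := exists_exact (D := Finsupp.single P (2 * (gen C K : ℤ) + 1)) P
    (by rw [dg_sgl]; omega)
  rw [Finsupp.single_eq_same] at hzP
  refine ⟨z, nc_of_ord (P := P) (by omega), fun Q => ?_⟩
  constructor
  · intro hQ
    by_contra hne
    have := hz Q
    rw [Finsupp.single_eq_of_ne hne, neg_zero] at this
    omega
  · rintro rfl
    omega

end

end P025H535
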