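import Vale.Agent.P025.R2.H535.StageA
import Vale.Agent.P025.R2.H535.StageB
import Vale.Agent.P025.R2.H535.Struct
import Vale.Agent.P025.R2.H535.PolesT
import Vale.Agent.P025.R2.H908.Nine4
import Vale.Agent.P025.R2.H833.S4r

/-!
# P025 (helper535): (9.5), (9.6): RNS at the places where `ψ` has an algebraic value
-/

set_option linter.style.haveILetI false
set_option linter.unusedSectionVars false

open TensorProduct Polynomial

universe u

namespace P025H535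

open P025H373 P025H628 P025H544 P025H492 P025H837 P025H450 P025H572 P025H210 Vale.Agent.P019P

section rows

variable (C : Type u) [NontriviallyNormedField C] [IsUltrametricDist C] [CompleteSpace C]
  [IsAlgClosed C] [CharZero C]

/-- G-ORD: expansions at all places -/
def RowLau : Prop :=
  ∀ (c : Cˣ) (L : Type u) [Field L] [Algebra C L] [Algebra (RatFunc C) L]
    [IsScalarTower C (RatFunc C) L] [FiniteDimensional (RatFunc C) L] [CFF C L], HasLau c L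

/-- (S5) (helper816) -/
def RowDesc : Prop :=
  ∀ (N M l : ℕ) (K Z W : Type u) [Field K] [Field Z] [Field W] [Algebra C K] [Algebra C Z]
    [Algebra C W] [Algebra K Z] [Algebra K W] [Algebra Z W] [Algebra (RatFunc C) K]
    [Algebra (RatFunc C) Z] [IsScalarTower C (RatFunc C) K] [IsScalarTower C (RatFunc C) Z]
    [IsScalarTower (RatFunc C) K Z] [IsScalarTower C K Z] [IsScalarTower C K W]
    [IsScalarTower C Z W] [IsScalarTower K Z W] [FiniteDimensional (RatFunc C) K]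
    [FiniteDimensional K Z] [CFF C K] [CFF C Z] [CFF C W] (c : Cˣ) (P' : Plk C Z),
    Cov N C K W → RNSat C M l P' c → Nat.Coprime l (N * M) →
      RNSat C (N * M) l (down K P') c

end rows

section Main

variable {C : Type u} [NontriviallyNormedField C] [IsUltrametricDist C] [CompleteSpace C]
  [IsAlgClosed C] [CharZero C]

/-- composition of `StageA` and descent, from `DiscLift` -/
theorem rnsat_of_disc {K : Type u} [Field K] [Algebra C K] [Algebra (RatFunc C) K]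
    [IsScalarTower C (RatFunc C) K] [FiniteDimensional (RatFunc C) K] [CFF C K]
    (hLau : RowLau C) (hDesc : RowDesc C)
    {p : ℕ} (hp : p.Prime) (hpC : ‖(p : C)‖ < 1)
    (D : Charts C K) (P : Pole C K) (hPu : ∀ P' : Pole C K, P' = P) (γ c : Cˣ)
    (hc : γ ^ P.N = c) (hr : D.r0 ≤ ‖(c : C)‖)
    (α : F0 C ≃ₐ[C] F0 C) (hα : ∀ x, α x ∈ F2 C ↔ x ∈ F2 C)
    {m : ℕ} (hm : 1 ≤ m) {b : C} {e l : ℕ} (h : K) (g : F0 C) (hg2 : g ∈ F2 C) (hg : g ≠ 0)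
    (hyx : α (D.ψ P γ h : F0 C) =
      (1 + algebraMap C (F0 C) b * (tt C)⁻¹ ^ e) * g ^ p ^ m)
    (hl : l.Prime) (hlp : l ≠ p) (hle : l ∣ e) (he : e ≠ 0)
    (hb : ‖((p ^ m : ℕ) : C)‖ < ‖b‖ * ‖(e : C)‖) (hb1 : ‖b‖ < 1)
    {N : ℕ} (hN : Nat.Coprime l (N * p)) (hlift : DiscLift N (D.ψ P γ) (p ^ m) h) :
    RNSat C (N * p) l P.1 c := by
  obtain ⟨Z, W, _, _, _, _, _, _, _, _, _, _, _, _, _, hcov, σ, hσ, y, hy0, hy, v, hv0, hv⟩ := hlift
  haveI : FiniteDimensional K W := hcov.fin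
  haveI : FiniteDimensional K Z := FiniteDimensional.left K Z W
  letI : Algebra (RatFunc C) Z := ((algebraMap K Z).comp (algebraMap (RatFunc C) K)).toAlgebra
  haveI : IsScalarTower (RatFunc C) K Z := IsScalarTower.of_algebraMap_eq fun _ => rfl
  haveI : IsScalarTower C (RatFunc C) Z := IsScalarTower.of_algebraMap_eq fun a => by
    rw [IsScalarTower.algebraMap_apply C K Z, IsScalarTower.algebraMap_apply C (RatFunc C) K,
      ← IsScalarTower.algebraMap_apply (RatFunc C) K Z]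
  obtain ⟨α2, hα2⟩ := exists_alpha2 α hα
  have hv2 : α2 v ≠ 0 := (map_ne_zero_iff α2 α2.injective).2 hv0
  have hvF : ((α2 v : F2 C) : F0 C) ≠ 0 := fun h0 => hv2 (Subtype.ext h0)
  obtain ⟨P', hP', hR⟩ := stageA hp hpC D P hPu γ c hc hr σ hσ α hα hm y hy0 hy
    (⟨g, hg2⟩ * (α2 v)⁻¹) (mul_ne_zero (fun h0 => hg (congrArg Subtype.val h0))
      (inv_ne_zero hv2)) (b := b) (e := e) (l := l) (by
      have h1 : α (D.ψ P γ h : F0 C) = α (σ y : F0 C) * ((α2 v : F2 C) : F0 C) ^ p ^ m := by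
        rw [hv, hα2, ← map_pow, ← map_mul]
        rfl
      have h2 : (((⟨g, hg2⟩ * (α2 v)⁻¹ : F2 C) : F2 C) : F0 C) =
          g * ((α2 v : F2 C) : F0 C)⁻¹ := rfl
      rw [h2, mul_pow g, ← mul_assoc, ← hyx, h1, mul_assoc, ← mul_pow, mul_inv_cancel₀ hvF,
        one_pow, mul_one]) hl hlp hle he hb hb1 (fun L => hLau c L)
  have h3 := hDesc N p l K Z W c P' hcov hR hN
  rwa [hP'] at h3

/-- `RNS` depends on `N` only through its prime divisors -/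
theorem RNSat.mono_N {K : Type u} [Field K] [Algebra C K] [Algebra (RatFunc C) K]
    [IsScalarTower C (RatFunc C) K] [CFF C K] {N N' l : ℕ} {P : Plk C K} {c : Cˣ}
    (h : RNSat C N l P c) {j : ℕ} (hN : N ∣ N' ^ j) : RNSat C N' l P c := by
  obtain ⟨L, i1, i2, i3, i4, i5, i6, i7, i8, hL, hβ⟩ := h
  refine ⟨L, i1, i2, i3, i4, i5, i6, i7, i8, ?_, hβ⟩
  obtain ⟨k, hk⟩ := hL.deg
  exact ⟨hL.fin, hL.gal, hL.sol, ⟨j * k, hk.trans (by rw [pow_mul]; exact pow_dvd_pow_of_dvd hN k)⟩,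
    hL.unr⟩

/-- small powers of `p` -/
theorem exists_pow_small {p : ℕ} (hpC : ‖(p : C)‖ < 1) {ε : ℝ} (hε : 0 < ε) :
    ∃ m : ℕ, 1 ≤ m ∧ ‖((p ^ m : ℕ) : C)‖ < ε := by
  obtain ⟨m, hm⟩ := exists_pow_lt_of_lt_one hε hpC
  refine ⟨m + 1, by omega, ?_⟩
  rw [Nat.cast_pow, norm_pow, pow_succ]
  calc ‖(p : C)‖ ^ m * ‖(p : C)‖ ≤ ‖(p : C)‖ ^ m * 1 :=
        mul_le_mul_of_nonneg_left hpC.le (pow_nonneg (norm_nonneg _) _)
    _ = ‖(p : C)‖ ^ m := mul_one _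
    _ < ε := hm

/-- **(S4)** `RNS` at the places where `ψ` has an algebraic value. -/
theorem rns_of_value (hThree : RowThree' C) (hLau : RowLau C) (hDesc : RowDesc C)
    {p : ℕ} [Fact p.Prime] [Algebra ℚ_[p] C] (hnm : ∀ x : ℚ_[p], ‖algebraMap ℚ_[p] C x‖ = ‖x‖)
    {K : Type u} [Field K] [Algebra C K] [CFF C K] {Der : Derivation C K K} (hDer : Der ≠ 0)
    {ψ : K} (hψ : ∀ a : C, ψ ≠ algebraMap C K a) {l₁ : ℕ} (hl₁ : l₁.Prime) (hl₁p : l₁ ≠ p)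
    (hS1 : {α : ℤ_[p] | ∃ P : Plk C K,
      0 < ord P (ψ - algebraMap C K (algebraMap ℚ_[p] C (α : ℚ_[p]))) ∧
        ¬ RNS p l₁ C K P}.Finite)
    (u : C) (hu : IsIntegral ℚ_[p] u) (Q : Plk C K) (hQ : ord Q (ψ - algebraMap C K u) = 1)
    {l : ℕ} (hl : l.Prime) (hlp : l ≠ p) (hll₁ : l ≠ l₁) : RNS (p * l₁) l C K Q := by
  classical
  have hp : p.Prime := Fact.out
  have hpC : ‖(p : C)‖ < 1 := by
    have h4 := hnm (p : ℚ_[p])
    rw [map_natCast] at h4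
    rw [h4]
    exact Padic.norm_p_lt_one
  -- the logarithmic system
  obtain ⟨n, α, f, hα, hf0, -, hford, hnf⟩ :=
    P025H908.exists_log_normal_form hnm hψ u hu _ hS1 (l - 1) Der hDer
  have hl1 : l - 1 + 1 = l := Nat.sub_add_cancel hl.one_lt.le
  rw [hl1] at hnf
  -- a further value
  have hinj : Function.Injective fun α : ℤ_[p] => algebraMap ℚ_[p] C (α : ℚ_[p]) :=
    fun a b hab => Subtype.ext ((algebraMap ℚ_[p] C).injective hab)
  obtain ⟨a0, ha0, ha0u⟩ : ∃ a0 : ℤ_[p], a0 ∉ {α : ℤ_[p] | ∃ P : Plk C K,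
      0 < ord P (ψ - algebraMap C K (algebraMap ℚ_[p] C (α : ℚ_[p]))) ∧ ¬ RNS p l₁ C K P} ∧
      algebraMap ℚ_[p] C (a0 : ℚ_[p]) ≠ u := by
    have hfin : ({α : ℤ_[p] | ∃ P : Plk C K,
      0 < ord P (ψ - algebraMap C K (algebraMap ℚ_[p] C (α : ℚ_[p]))) ∧ ¬ RNS p l₁ C K P} ∪
        {α : ℤ_[p] | algebraMap ℚ_[p] C (α : ℚ_[p]) = u}).Finite := by
      refine hS1.union (Set.Subsingleton.finite ?_)
      intro x hx y hy
      exact hinj (hx.trans hy.symm)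
    obtain ⟨a0, h0⟩ := hfin.infinite_compl.nonempty
    exact ⟨a0, fun h => h0 (Or.inl h), fun h => h0 (Or.inr h)⟩
  -- the function `T` with poles over the values
  let A : Finset C := insert (algebraMap ℚ_[p] C (a0 : ℚ_[p]))
    (Finset.univ.image fun i => algebraMap ℚ_[p] C (α i : ℚ_[p]))
  have hAne : A.Nonempty := ⟨_, Finset.mem_insert_self _ _⟩
  have huA : u ∉ A := by
    intro h
    rcases Finset.mem_insert.1 h with h | h
    · exact ha0u h.symm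
    · obtain ⟨i, -, hi⟩ := Finset.mem_image.1 h
      exact (hα i).2 hi
  have hARNS : ∀ a ∈ A, ∀ P : Plk C K, 0 < ord P (ψ - algebraMap C K a) → RNS p l₁ C K P := by
    intro a ha P hP
    rcases Finset.mem_insert.1 ha with h | h
    · by_contra hR
      exact ha0 ⟨P, h ▸ hP, hR⟩
    · obtain ⟨i, -, hi⟩ := Finset.mem_image.1 h
      by_contra hR
      exact (hα i).1 ⟨P, hi ▸ hP, hR⟩
  obtain ⟨T, hTnc, hTpole, hTval⟩ := exists_poles hψ A hAne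
  have hTQ : ord Q T = 0 := hTval Q u huA (by rw [hQ]; exact one_pos)
  -- (III') at `T`
  have hlift : ∀ (m : ℕ) (χ : K →ₐ[C] F2 C), ((χ T : F2 C) : F0 C) ∈ A2 C →
      DiscLift (p * l₁) χ (p ^ m) (f m) := by
    intro m χ hχ
    obtain ⟨i1, i2, i3, i4⟩ := exists_struct T hTnc
    have hTT : TT C K = T := i4
    refine stageB hThree hl₁ ((Nat.coprime_primes hl₁ hp).2 hl₁p) (fun P hP => ?_) (p ^ m)
      (pow_pos hp.pos _) χ (by rw [hTT]; exact hχ) (f m) (hf0 m) (fun P hP => ?_)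
    · rw [hTT] at hP
      obtain ⟨a, ha, hPa⟩ := (hTpole P).1 hP
      exact hARNS a ha P hPa
    · rw [hTT] at hP
      rw [hford m P (fun i => ?_)]
      · exact dvd_zero _
      · by_contra hneg
        push Not at hneg
        have h1 := (hTpole P).2 ⟨_, Finset.mem_insert_of_mem
          (Finset.mem_image_of_mem _ (Finset.mem_univ i)), hneg⟩
        omega
  -- the structure with the only pole `Q`
  obtain ⟨t, htnc, ht⟩ := exists_one_pole Q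
  obtain ⟨i1, i2, i3, i4⟩ := exists_struct t htnc
  have hTT : TT C K = t := i4
  refine ⟨i1, i2, fun P => by rw [i4]; exact ht P, ?_⟩
  obtain ⟨D⟩ := exists_charts C K
  let P : Pole C K := ⟨Q, by rw [hTT]; exact (ht Q).2 rfl⟩
  have hPu : ∀ P' : Pole C K, P' = P := by
    intro P'
    apply Subtype.ext
    have h1 : ord P'.1 (TT C K) < 0 := P'.2
    exact (ht P'.1).1 (lt_of_eq_of_lt (congrArg (ord P'.1) hTT.symm) h1)
  obtain ⟨γ₀, R, w, hw0, hR1, hγ₀, hnf⟩ := hnf i1 i2 i3 D P hQ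
  obtain ⟨R', hR'1, hR'⟩ := P025H833.exists_sub2_mem_A2 (D.ψ P γ₀ T) (by
    have hT0 : T ≠ 0 := fun h => hTnc 0 (by rw [h, map_zero])
    rw [D.order_eq P γ₀ hγ₀ T hT0]
    exact hTQ.ge)
  intro r
  have hγpos : 0 < ‖(γ₀ : C)‖ ^ P.N := pow_pos (norm_pos_iff.2 γ₀.ne_zero) _
  obtain ⟨δ, hδ⟩ := NormedField.exists_lt_norm C
    (max (max R R') (max (r / ‖(γ₀ : C)‖ ^ P.N) (‖w‖ + 1)))
  have hδ1 : R ≤ ‖δ‖ := ((le_max_left _ _).trans (le_max_left _ _)).trans hδ.le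
  have hδ2 : R' ≤ ‖δ‖ := ((le_max_right _ _).trans (le_max_left _ _)).trans hδ.le
  have hδ3 : r / ‖(γ₀ : C)‖ ^ P.N ≤ ‖δ‖ := ((le_max_left _ _).trans (le_max_right _ _)).trans hδ.le
  have hδ4 : ‖w‖ + 1 < ‖δ‖ := ((le_max_right _ _).trans (le_max_right _ _)).trans_lt hδ
  have hδ5 : 1 ≤ ‖δ‖ := hR1.trans hδ1
  have hδ0 : δ ≠ 0 := norm_pos_iff.1 (lt_of_lt_of_le one_pos hδ5)
  obtain ⟨δ, rfl⟩ : ∃ d : Cˣ, (d : C) = δ := ⟨Units.mk0 δ hδ0, rfl⟩
  obtain ⟨α', hα', hg⟩ := hnf δ hδ1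
  have hNge : ‖(δ : C)‖ ≤ ‖(δ : C)‖ ^ P.N := by
    calc ‖(δ : C)‖ = ‖(δ : C)‖ ^ 1 := (pow_one _).symm
      _ ≤ ‖(δ : C)‖ ^ P.N := pow_le_pow_right₀ hδ5 P.N_pos
  have hnorm : ‖(((γ₀ * δ) ^ P.N : Cˣ) : C)‖ = ‖(γ₀ : C)‖ ^ P.N * ‖(δ : C)‖ ^ P.N := by
    rw [Units.val_pow_eq_pow_val, Units.val_mul, norm_pow, norm_mul, mul_pow]
  refine ⟨(γ₀ * δ) ^ P.N, ?_, ?_⟩
  · rw [hnorm]
    calc r ≤ ‖(δ : C)‖ * ‖(γ₀ : C)‖ ^ P.N := by rwa [div_le_iff₀ hγpos] at hδ3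
      _ = ‖(γ₀ : C)‖ ^ P.N * ‖(δ : C)‖ := mul_comm _ _
      _ ≤ _ := mul_le_mul_of_nonneg_left hNge hγpos.le
  · have hr : D.r0 ≤ ‖(((γ₀ * δ) ^ P.N : Cˣ) : C)‖ := by
      rw [hnorm]
      calc D.r0 ≤ ‖(γ₀ : C)‖ ^ P.N := hγ₀
        _ = ‖(γ₀ : C)‖ ^ P.N * 1 := (mul_one _).symm
        _ ≤ _ := mul_le_mul_of_nonneg_left (hδ5.trans hNge) hγpos.le
    have hlC : 0 < ‖(l : C)‖ := norm_pos_iff.2 (by exact_mod_cast hl.ne_zero)
    have hb0 : 0 < ‖w * (δ : C)⁻¹ ^ l‖ :=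
      norm_pos_iff.2 (mul_ne_zero hw0 (pow_ne_zero _ (inv_ne_zero δ.ne_zero)))
    have hb1 : ‖w * (δ : C)⁻¹ ^ l‖ < 1 := by
      rw [norm_mul, norm_pow, norm_inv, inv_pow, ← div_eq_mul_inv,
        div_lt_one (pow_pos (lt_of_lt_of_le one_pos hδ5) _)]
      calc ‖w‖ < ‖w‖ + 1 := lt_add_one _
        _ < ‖(δ : C)‖ := hδ4
        _ = ‖(δ : C)‖ ^ 1 := (pow_one _).symm
        _ ≤ ‖(δ : C)‖ ^ l := pow_le_pow_right₀ hδ5 hl.one_lt.le
    obtain ⟨m, hm1, hm⟩ := exists_pow_small hpC (mul_pos hb0 hlC)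
    obtain ⟨g, hg2, hg0, hgx⟩ := hg m
    have hcop : Nat.Coprime l (p * l₁ * p) := by
      have h1 := (Nat.coprime_primes hl hp).2 hlp
      exact (h1.mul_right ((Nat.coprime_primes hl hl₁).2 hll₁)).mul_right h1
    have hmain := rnsat_of_disc hLau hDesc hp hpC D P hPu (γ₀ * δ) ((γ₀ * δ) ^ P.N) rfl hr α' hα'
      hm1 (f m) g hg2 hg0 hgx hl hlp dvd_rfl hl.ne_zero hm hb1 hcop
      (hlift m (D.ψ P (γ₀ * δ)) (by
        rw [D.scale P γ₀ δ hγ₀ hδ5]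
        exact hR' δ δ.ne_zero hδ5 hδ2))
    exact RNSat.mono_N hmain (j := 2) ⟨l₁, by ring⟩

end Main

end P025H535
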