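import Vale.Agent.P025.R2.H535.KumL
import Vale.Agent.P025.R2.H535.Pnt
import Vale.Agent.P025.R2.H572.LAaAdj
import Vale.Agent.P025.R2.H450.RnsDef

/-!
# P025 (helper535): from a local model at a point of `D(Z)` to `RNSat`
-/

set_option linter.style.haveILetI false
set_option linter.unusedSectionVars false

open TensorProduct Polynomial

universe u v

namespace P025H535

open P025H373 P025H628 P025H544 P025H492 P025H837 P025H450 P025H572 Vale.Agent.P019P

section Main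

variable {C : Type u} [NontriviallyNormedField C] [IsUltrametricDist C] [CompleteSpace C]
  [IsAlgClosed C] [CharZero C]

/-- the expansions at the places of `L`: the input from G-ORD. -/
def HasLau (c : Cˣ) (L : Type v) [Field L] [Algebra C L] [Algebra (RatFunc C) L] [CFF C L] : Prop :=
  ∀ Q : Plk C L,
    (∃ lam : F1r C c ⊗[RatFunc C] L →+* LaurentSeries C, ∀ x : L, x ≠ 0 →
      (lam (1 ⊗ₜ x)).order = ord Q x) ∨
    (∃ lam : F2r C c ⊗[RatFunc C] L →+* LaurentSeries C, ∀ x : L, x ≠ 0 →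
      (lam (1 ⊗ₜ x)).order = ord Q x)

theorem order_pow' {k : Type*} [Field k] (x : LaurentSeries k) (n : ℕ) :
    (n : ℤ) ∣ (x ^ n).order := by
  rw [HahnSeries.order_pow, nsmul_eq_mul]
  exact Dvd.intro _ rfl

variable {Z : Type v} [Field Z] [Algebra C Z] [Algebra (RatFunc C) Z]
  [IsScalarTower C (RatFunc C) Z] [FiniteDimensional (RatFunc C) Z] [CFF C Z]

/-- **(A*)** the local model at a point of `D(Z)`. -/
theorem rnsat_pt {p : ℕ} (hp : p.Prime) {l : ℕ} (hl : l ≠ 0) (c : Cˣ) (P : Plk C Z)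
    (π2 : F2r C c ⊗[RatFunc C] Z →+* F2 C) (hs2 : Function.Surjective π2)
    (π0 : F0r C c ⊗[RatFunc C] Z →+* F0 C) (hs0 : Function.Surjective π0)
    (h02 : ∀ w, π0 (bc (RatFunc C) (F2r C c) (F0r C c) Z w) = algebraMap (F2 C) (F0 C) (π2 w))
    (ε : F2r C c ⊗[RatFunc C] Z) (hε : ε * ε = ε) (hε1 : π2 ε = 1)
    (hεk : ∀ w, π2 w = 0 → w * ε = 0)
    (hε0 : ∀ w, π0 w = 0 → w * bc (RatFunc C) (F2r C c) (F0r C c) Z ε = 0)
    (d : Pt (RatFunc C) (F2r C c) Z) (hd : ∀ w, w ∈ d.asIdeal ↔ π2 w = 0) (hP : OnD C c P d)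
    (m1 m2 : ℕ) (f : Z) (hf : f ≠ 0) (hdiv : ∀ Q : Plk C Z, ((p ^ m1 * p ^ m2 : ℕ) : ℤ) ∣ ord Q f)
    (x g : F2 C) (hx : x ≠ 0) (hg : g ≠ 0) (hfx : π2 (1 ⊗ₜ f) = (x * g ^ (p ^ m2)) ^ (p ^ m1))
    (hM : IsModel l (p ^ m2) x)
    (hLau : ∀ (L : Type v) [Field L] [Algebra C L] [Algebra (RatFunc C) L]
      [IsScalarTower C (RatFunc C) L] [FiniteDimensional (RatFunc C) L] [CFF C L], HasLau c L) :
    RNSat C p l P c := by
  have hq1 : p ^ m1 ≠ 0 := pow_ne_zero _ hp.ne_zero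
  have hq2 : p ^ m2 ≠ 0 := pow_ne_zero _ hp.ne_zero
  have hn : p ^ m1 * p ^ m2 ≠ 0 := mul_ne_zero hq1 hq2
  -- the cover
  obtain ⟨L, _, _, _⟩ : ∃ (L : Type v) (_ : Field L) (_ : Algebra Z L),
      IsSplittingField Z L (X ^ (p ^ m1 * p ^ m2) - Polynomial.C f : Z[X]) :=
    ⟨(X ^ (p ^ m1 * p ^ m2) - Polynomial.C f : Z[X]).SplittingField, inferInstance, inferInstance,
      inferInstance⟩
  letI : Algebra C L := ((algebraMap Z L).comp (algebraMap C Z)).toAlgebra
  haveI : IsScalarTower C Z L := IsScalarTower.of_algebraMap_eq fun _ => rfl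
  letI : Algebra (RatFunc C) L := ((algebraMap Z L).comp (algebraMap (RatFunc C) Z)).toAlgebra
  haveI : IsScalarTower (RatFunc C) Z L := IsScalarTower.of_algebraMap_eq fun _ => rfl
  haveI : IsScalarTower C (RatFunc C) L := IsScalarTower.of_algebraMap_eq fun a => by
    rw [IsScalarTower.algebraMap_apply C Z L, IsScalarTower.algebraMap_apply C (RatFunc C) Z,
      ← IsScalarTower.algebraMap_apply (RatFunc C) Z L]
  haveI : FiniteDimensional Z L := IsSplittingField.finiteDimensional L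
    (X ^ (p ^ m1 * p ^ m2) - Polynomial.C f : Z[X])
  haveI : CFF C L := cff_of_finite (K := Z)
  haveI : FiniteDimensional (RatFunc C) L := FiniteDimensional.trans (RatFunc C) Z L
  obtain ⟨hgal, hsol, hunr, hdeg⟩ := kummer_cov (k := C) (Z := Z) (L := L) hn hf hdiv
  have hcov : Cov p C Z L :=
    { fin := inferInstance
      gal := hgal
      sol := hsol
      deg := ⟨m1 + m2, by rw [pow_add]; exact hdeg⟩
      unr := fun {_ _} => hunr }
  -- the algebra structures on the point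
  letI a2 : Algebra Z (F2 C) := (π2.comp (Algebra.TensorProduct.includeRight :
    Z →ₐ[RatFunc C] F2r C c ⊗[RatFunc C] Z).toRingHom).toAlgebra
  have ha2 : ∀ z : Z, algebraMap Z (F2 C) z = π2 (1 ⊗ₜ z) := fun z => rfl
  letI a0 : Algebra Z (F0 C) := ((algebraMap (F2 C) (F0 C)).comp (algebraMap Z (F2 C))).toAlgebra
  haveI : IsScalarTower Z (F2 C) (F0 C) := IsScalarTower.of_algebraMap_eq fun _ => rfl
  obtain ⟨H, hHu, ⟨z0, hz0⟩, hHn, hHl⟩ := hM
  obtain ⟨β, b, t, d', hβ0, ha, ht, hd', hdd, hlam⟩ := glue_pt C (L := L) (patch c) π2 hs2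
    (fun z => (ha2 z).symm) π0 hs0 h02 ε hε hε1 hεk hε0 (p ^ m1) (p ^ m2) l hq1 hq2 hl f hf x g hx
    hg hfx H hHu hHn ⟨z0, hz0⟩
  refine ⟨L, inferInstance, inferInstance, inferInstance, inferInstance, inferInstance,
    inferInstance, inferInstance, inferInstance, hcov, β, hβ0, ?_, ha, d', ?_, hd'⟩
  · intro Q
    rcases hLau L Q with ⟨lam, h⟩ | ⟨lam, h⟩
    · rw [← h β hβ0]
      obtain ⟨a, ha⟩ := ha
      rw [← ha, map_pow]
      exact order_pow' _ _
    · rw [← h β hβ0, ht, map_mul, map_pow]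
      have htu : lam (t : F2r C c ⊗[RatFunc C] L) ≠ 0 := (t.isUnit.map lam).ne_zero
      have hbu : lam (b : F2r C c ⊗[RatFunc C] L) ≠ 0 := (b.isUnit.map lam).ne_zero
      rw [HahnSeries.order_mul hbu (pow_ne_zero _ htu)]
      refine dvd_add ?_ (order_pow' _ _)
      rcases hlam (LaurentSeries C) lam with h1 | ⟨μ, hμ, -⟩
      · rw [h1, HahnSeries.order_one]
        exact dvd_zero _
      · rw [← hμ]
        exact hHl μ
  · have h1 : ptMap (RatFunc C) (F2r C c) (IsScalarTower.toAlgHom (RatFunc C) Z L) d' = d := by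
      apply PrimeSpectrum.ext
      ext w
      rw [hd]
      exact hdd w
    rw [h1]
    exact hP

end Main

end P025H535
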