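import Vale.Agent.P025.R2.H535.RnsPt
import Vale.Agent.P025.R2.H210.Disc

/-!
# P025 (helper535): (9.5) the local model at the lift of a disc to a cover
-/

set_option linter.style.haveILetI false
set_option linter.unusedSectionVars false

open TensorProduct Polynomial

universe u v

namespace P025H535

open P025H373 P025H628 P025H544 P025H492 P025H837 P025H450 P025H572 P025H210 Vale.Agent.P019P

section Main

variable {C : Type u} [NontriviallyNormedField C] [IsUltrametricDist C] [CompleteSpace C]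
  [IsAlgClosed C] [CharZero C]
  {K : Type v} [Field K] [Algebra C K] [Algebra (RatFunc C) K] [IsScalarTower C (RatFunc C) K]
  [FiniteDimensional (RatFunc C) K] [CFF C K]

section

variable {Z : Type v} [Field Z] [Algebra C Z] [Algebra K Z] [IsScalarTower C K Z] [CFF C Z]
  [Algebra.IsAlgebraic K Z]

/-- the place of `Z` given by a lift of a chart -/
theorem exists_place_over (D : Charts C K) (P : Pole C K) (γ : Cˣ)
    (hr : D.r0 ≤ ‖(γ : C)‖ ^ P.N) (σ : Z →ₐ[C] F2 C)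
    (hσ : ∀ k, σ (algebraMap K Z k) = D.ψ P γ k) :
    ∃ P' : Plk C Z, down K P' = P.1 ∧ ∀ z : Z, z ≠ 0 → (lamInf (σ z)).order = ord P' z := by
  obtain ⟨P', e, he⟩ := exists_place_of_hom ((lamInf : F2 C →ₐ[C] LaurentSeries C).comp σ)
  have he' : ∀ z : Z, z ≠ 0 → (lamInf (σ z)).order = e * ord P' z := fun z hz => he z hz
  have hKZ : ∀ k : K, k ≠ 0 → ord P.1 k = e * ord P' (algebraMap K Z k) := by
    intro k hk
    rw [← he' _ ((map_ne_zero (algebraMap K Z)).2 hk), hσ, D.order_eq P γ hr k hk]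
  obtain ⟨s, hs0, hs⟩ := exists_unif P.1
  have h1 := hKZ s hs0
  rw [hs] at h1
  have he1 : (e : ℤ) = 1 := by
    rcases Int.eq_one_or_neg_one_of_mul_eq_one h1.symm with h | h
    · exact h
    · omega
  refine ⟨P', ?_, fun z hz => by rw [he' z hz, he1, one_mul]⟩
  apply Subtype.ext
  apply SetLike.ext
  intro k
  rw [mem_down, mem_iff_ord, mem_iff_ord]
  by_cases hk : k = 0
  · simp [hk]
  · rw [hKZ k hk, he1, one_mul, map_eq_zero]

end

/-- restriction of an automorphism of `F0` to `F2` -/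
theorem exists_alpha2 (α : F0 C ≃ₐ[C] F0 C) (hα : ∀ x, α x ∈ F2 C ↔ x ∈ F2 C) :
    ∃ α2 : F2 C ≃+* F2 C, ∀ x, ((α2 x : F2 C) : F0 C) = α (x : F0 C) := by
  refine ⟨{ toFun := fun x => ⟨α x, (hα x).2 x.2⟩
            invFun := fun x => ⟨α.symm x, by rw [← hα, AlgEquiv.apply_symm_apply]; exact x.2⟩
            left_inv := fun x => Subtype.ext (α.symm_apply_apply _)
            right_inv := fun x => Subtype.ext (α.apply_symm_apply _)
            map_mul' := fun x y => Subtype.ext (map_mul α _ _)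
            map_add' := fun x y => Subtype.ext (map_add α _ _) }, fun x => rfl⟩

variable {Z : Type v} [Field Z] [Algebra C Z] [Algebra (RatFunc C) Z] [Algebra K Z]
  [IsScalarTower C K Z] [IsScalarTower (RatFunc C) K Z] [IsScalarTower C (RatFunc C) Z]
  [FiniteDimensional K Z] [CFF C Z]

/-- the point of a lift of a chart carries the place of the lift -/
theorem onD_of_lift (D : Charts C K) (P : Pole C K) (γ c : Cˣ) (hc : γ ^ P.N = c)
    (hr : D.r0 ≤ ‖(c : C)‖) (σ : Z →ₐ[C] F2 C) (P' : Plk C Z)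
    (hP' : ∀ z : Z, z ≠ 0 → (lamInf (σ z)).order = ord P' z)
    (π : F2r C c ⊗[RatFunc C] Z →+* F2 C)
    (hπ : ∀ a z, π (a ⊗ₜ z) = D.ch2 P γ c hc hr (a ⊗ₜ 1) * σ z)
    (d : Pt (RatFunc C) (F2r C c) Z) (hd : ∀ w, w ∈ d.asIdeal ↔ π w = 0) : OnD C c P' d := by
  let φ : F2r C c ⊗[RatFunc C] Z →ₐ[C] LaurentSeries C :=
    { (lamInf : F2 C →ₐ[C] LaurentSeries C).toRingHom.comp π with
      commutes' := by
        intro a
        change lamInf (π (algebraMap C (F2r C c) a ⊗ₜ 1)) = _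
        rw [hπ, map_one, mul_one, Charts.ch2_tmul, map_one, mul_one]
        have h1 : pow2 P.N P.N_pos (algebraMap C (F2 C) a) = algebraMap C (F2 C) a :=
          (pow2 P.N P.N_pos).commutes a
        exact (congrArg lamInf h1).trans (lamInf.commutes a) }
  refine ⟨φ, ?_, fun x hx => ?_⟩
  · ext w
    rw [RingHom.mem_ker, hd]
    change lamInf (π w) = 0 ↔ _
    exact map_eq_zero _
  · change (lamInf (π (1 ⊗ₜ x))).order = _
    have h1 : D.ch2 P γ c hc hr (1 ⊗ₜ 1) = 1 := map_one _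
    rw [hπ, h1, one_mul, hP' x hx]

/-- **(9.5), local part.** -/
theorem stageA {p : ℕ} (hp : p.Prime) (hpC : ‖(p : C)‖ < 1)
    (D : Charts C K) (P : Pole C K) (hPu : ∀ P' : Pole C K, P' = P) (γ c : Cˣ)
    (hc : γ ^ P.N = c) (hr : D.r0 ≤ ‖(c : C)‖)
    (σ : Z →+* F2 C) (hσ : ∀ k, σ (algebraMap K Z k) = D.ψ P γ k)
    (α : F0 C ≃ₐ[C] F0 C) (hα : ∀ x, α x ∈ F2 C ↔ x ∈ F2 C)
    {m : ℕ} (hm : 1 ≤ m) (y : Z) (hy0 : y ≠ 0) (hdiv : ∀ Q : Plk C Z, ((p ^ m : ℕ) : ℤ) ∣ ord Q y)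
    {b : C} {e l : ℕ} (g : F2 C) (hg : g ≠ 0) (hyx : α (σ y : F0 C) =
      (1 + algebraMap C (F0 C) b * (tt C)⁻¹ ^ e) * (g : F0 C) ^ p ^ m)
    (hl : l.Prime) (hlp : l ≠ p) (hle : l ∣ e) (he : e ≠ 0)
    (hb : ‖((p ^ m : ℕ) : C)‖ < ‖b‖ * ‖(e : C)‖) (hb1 : ‖b‖ < 1)
    (hLau : ∀ (L : Type v) [Field L] [Algebra C L] [Algebra (RatFunc C) L]
      [IsScalarTower C (RatFunc C) L] [FiniteDimensional (RatFunc C) L] [CFF C L], HasLau c L) :
    ∃ P' : Plk C Z, down K P' = P.1 ∧ RNSat C p l P' c := by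
  have hr' : D.r0 ≤ ‖(γ : C)‖ ^ P.N := by
    rw [← norm_pow, ← Units.val_pow_eq_pow_val, hc]
    exact hr
  haveI : FiniteDimensional (RatFunc C) Z := FiniteDimensional.trans (RatFunc C) K Z
  haveI : CharZero K := charZero_of_injective_algebraMap (algebraMap C K).injective
  -- `σ` is a `C`-algebra homomorphism
  let σC : Z →ₐ[C] F2 C :=
    { σ with
      commutes' := by
        intro a
        change σ (algebraMap C Z a) = _
        rw [IsScalarTower.algebraMap_apply C K Z, hσ, AlgHom.commutes] }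
  obtain ⟨P', hP', hord⟩ := exists_place_over D P γ hr' σC hσ
  refine ⟨P', hP', ?_⟩
  -- the charts of `K` are bijective
  have hγ : ∃ G : Pole C K → Cˣ, (∀ P', G P' ^ P'.N = c) ∧ G P = γ :=
    ⟨fun P' => γ, fun P' => by rw [hPu P']; exact hc, rfl⟩
  obtain ⟨G, hG, hGP⟩ := hγ
  subst hGP
  have hbij2 : Function.Bijective (D.ch2 P (G P) c hc hr) := by
    have h1 := D.bij2 c hr G hG
    constructor
    · intro x y hxy
      apply h1.1
      funext P'
      obtain rfl := hPu P'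
      exact hxy
    · intro z
      obtain ⟨x, hx⟩ := h1.2 (fun _ => z)
      exact ⟨x, congrFun hx P⟩
  have hbij0 : Function.Bijective (D.ch0 P (G P) c hc hr) := by
    have h1 := D.bij0 c hr G hG
    constructor
    · intro x y hxy
      apply h1.1
      funext P'
      obtain rfl := hPu P'
      exact hxy
    · intro z
      obtain ⟨x, hx⟩ := h1.2 (fun _ => z)
      exact ⟨x, congrFun hx P⟩
  obtain ⟨α2, hα2⟩ := exists_alpha2 α hα
  let χ2 : F2r C c ⊗[RatFunc C] K →+* F2 C := α2.toRingHom.comp (D.ch2 P (G P) c hc hr)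
  let χ0 : F0r C c ⊗[RatFunc C] K →+* F0 C := α.toRingHom.comp (D.ch0 P (G P) c hc hr)
  have hχ2 : Function.Bijective χ2 := α2.bijective.comp hbij2
  have hχ0 : Function.Bijective χ0 := α.bijective.comp hbij0
  have hcomp : ∀ w, χ0 (bc (RatFunc C) (F2r C c) (F0r C c) K w) =
      algebraMap (F2 C) (F0 C) (χ2 w) := by
    intro w
    change α (D.ch0 P (G P) c hc hr _) = ((α2 (D.ch2 P (G P) c hc hr w) : F2 C) : F0 C)
    rw [Charts.ch0_bc, hα2]
  have hch1 : ∀ k : K, D.ch2 P (G P) c hc hr (1 ⊗ₜ k) = D.ψ P (G P) k := by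
    intro k
    rw [Charts.ch2_tmul]
    have h1 : pow2 P.N P.N_pos (show F2 C from (1 : F2r C c)) = 1 := map_one _
    rw [h1, one_mul]
  have hσ2 : ∀ k, (α2.toRingHom.comp σ) (algebraMap K Z k) = χ2 (1 ⊗ₜ k) := by
    intro k
    change α2 (σ (algebraMap K Z k)) = α2 (D.ch2 P (G P) c hc hr (1 ⊗ₜ k))
    rw [hσ, hch1]
  obtain ⟨π2, π0, ε, h1, h2, h3, h4, h5, h6, h7, h8, h9⟩ := exists_pnt_data χ2 hχ2 χ0 hχ0 hcomp
    (α2.toRingHom.comp σ) hσ2
  -- the point
  obtain ⟨π, hπ, -⟩ := exists_pnt (D.ch2 P (G P) c hc hr) σ (fun k => by rw [hσ, hch1])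
  have hππ : ∀ w, π2 w = α2 (π w) := by
    intro w
    induction w with
    | zero => simp
    | add u v hu hv => simp only [map_add, hu, hv]
    | tmul a z =>
      rw [h1, hπ, map_mul]
      rfl
  let d : Pt (RatFunc C) (F2r C c) Z := ⟨RingHom.ker π, RingHom.ker_isPrime π⟩
  have hd : ∀ w, w ∈ d.asIdeal ↔ π2 w = 0 := by
    intro w
    change w ∈ RingHom.ker π ↔ _
    rw [RingHom.mem_ker, hππ, map_eq_zero_iff α2 α2.injective]
  have hOn : OnD C c P' d := onD_of_lift D P (G P) c hc hr σC P' hord π hπ d (fun w => Iff.rfl)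
  have hM := isModel_a hp hpC hm hl hlp hle he hb hb1
  refine rnsat_pt hp hl.ne_zero c P' π2 h3 π0 h4 h5 ε h6 h7 h8 h9 d hd hOn 0 m y hy0 ?_ (xb b e) g
    (xb_ne_zero b hb1 e) hg ?_ hM hLau
  · intro Q
    rw [pow_zero, one_mul]
    exact hdiv Q
  · rw [pow_zero, pow_one]
    apply (algebraMap (F2 C) (F0 C)).injective
    have h10 : π2 (1 ⊗ₜ y) = α2 (σ y) := by
      rw [h1]
      have h11 : χ2 ((1 : F2r C c) ⊗ₜ[RatFunc C] (1 : K)) = 1 := map_one χ2
      rw [h11, one_mul]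
      rfl
    rw [h10, map_mul, map_pow, coe_xb]
    change ((α2 (σ y) : F2 C) : F0 C) = _
    rw [hα2, hyx]
    rfl

end Main

end P025H535
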