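import Vale.Agent.P025.R2.H535.Rns4
import Vale.Agent.P025.R2.H680.S1
import Vale.Agent.P025.R2.H816.Descend
import Vale.Agent.P025.R2.H572.RnsAt

/-!
# P025 (helper535): (S4) with all its inputs plugged, except Lemma A and (III')
-/

set_option linter.unusedSectionVars false

open TensorProduct

universe u

namespace P025H535

open P025H373 P025H628 P025H544 P025H492 P025H837 P025H450 P025H587 P025H210 P025H666
  Vale.Agent.P019P

variable {C : Type u} [NontriviallyNormedField C] [IsUltrametricDist C] [CompleteSpace C]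
  [IsAlgClosed C] [CharZero C]

variable (C) in
theorem rowLau : RowLau C := fun c _ _ _ _ _ _ _ Q => P025H572.exists_lam c Q

variable (C) in
theorem rowDesc : RowDesc C := by
  intro N M l K Z W _ _ _ _ _ _ _ _ _ _ _ _ _ _ _ _ _ _ _ _ _ _ _ c P' hcov hR hcop
  exact P025H816.rnsat_descend hcov hcop P' c hR

/-- **(S4)** RNS at all places over algebraic values of `ψ = θ' / θ` (`Value C p` of
`H352/Nine.lean`). -/
theorem value {p : ℕ} [Fact p.Prime] [Algebra ℚ_[p] C]
    (hnm : ∀ x : ℚ_[p], ‖algebraMap ℚ_[p] C x‖ = ‖x‖) (hLemA : LemA C p)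
    (hThree : RowThree' C)
    (K : Type u) [Field K] [Algebra C K] [CFF C K] (D : Derivation C K K) (f f' : ℕ → K)
    (θ θ' : K) (hD : D ≠ 0) (hf : IsSys C p f) (hf' : IsSys C p f') (hθ : IsTheta p D f θ)
    (hθ' : IsTheta p D f' θ') (hθ0 : θ ≠ 0) (hne : ∀ a : C, θ' ≠ algebraMap C K a * θ)
    (u : C) (hu : IsIntegral ℚ_[p] u) (Q : Plk C K)
    (hQ : ord Q (θ' / θ - algebraMap C K u) = 1) (l : ℕ) (hl : l.Prime) (hlp : l ≠ p)
    (hl1 : l ≠ P025H680.l1 p) : RNS (p * P025H680.l1 p) l C K Q := by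
  have hp : p.Prime := Fact.out
  have hψ : ∀ a : C, θ' / θ ≠ algebraMap C K a := by
    intro a h
    refine hne a ?_
    rw [← h, div_mul_cancel₀ _ hθ0]
  have hL := P025H680.isL_l1 hp
  exact rns_of_value hThree (rowLau C) (rowDesc C) hnm hD hψ hL.1 hL.2.1
    (P025H680.rns_over_value hnm hLemA K hD hf' hf hθ' hθ hθ0 hne) u hu Q hQ hl hlp hl1

end P025H535
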